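import Mathlib
import Crest.Agent.Lib.S0324.Area

/-!
# Row 211 / S0328, part B (lower bound for the projected pieces)

* `projL u` : the projection `y ↦ y - (⟪y,u⟫/‖u‖²) u` as a linear map;
* `gram_projL` : for `x y wc ⊥ e`, `‖e‖ = 1`:
  `gram (π x) (π y) = gram x y / (1 + ‖wc‖²)` with `π = projL (e + wc)`;
* `projL_image_triangle` : `π '' conv{P,Q,R} = conv{π P, π Q, π R}`;
* `piece_proj_lower` : the projected piece of the ruled set contains a triangle of the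
  expected area.
-/

set_option autoImplicit false
open MeasureTheory
open scoped ENNReal

namespace Crest.Agent.S0328.Helper12

open Crest.Agent.S0324

/-- Coordinates of the inner product on `E3`. -/
theorem inner3 (x y : E3) : inner ℝ x y = x 0 * y 0 + x 1 * y 1 + x 2 * y 2 := by
  simp only [PiLp.inner_apply, Fin.sum_univ_three, RCLike.inner_apply, conj_trivial]
  ring

theorem normsq3 (x : E3) : ‖x‖ ^ 2 = x 0 ^ 2 + x 1 ^ 2 + x 2 ^ 2 := by
  rw [← real_inner_self_eq_norm_sq, inner3]; ring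

/-- The projection along `u` onto `u^⊥`, as a linear map (`u` need not be a unit vector). -/
noncomputable def projL (u : E3) : E3 →ₗ[ℝ] E3 where
  toFun y := y - (inner ℝ y u / ‖u‖ ^ 2) • u
  map_add' x y := by
    simp only [inner_add_left, add_div, add_smul]; abel
  map_smul' c x := by
    simp only [inner_smul_left, RingHom.id_apply, smul_sub, smul_smul, conj_trivial, mul_div_assoc]

theorem projL_apply (u y : E3) : projL u y = y - (inner ℝ y u / ‖u‖ ^ 2) • u := rfl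

theorem projL_fun (u : E3) : (fun y : E3 => y - (inner ℝ y u / ‖u‖ ^ 2) • u) = projL u := rfl

/-- `π u y ⊥ u` for `u ≠ 0`. -/
theorem inner_projL_self (u y : E3) (hu : u ≠ 0) : inner ℝ (projL u y) u = 0 := by
  have hU : ‖u‖ ^ 2 ≠ 0 := by positivity
  rw [projL_apply, inner_sub_left, inner_smul_left, real_inner_self_eq_norm_sq, conj_trivial]
  field_simp
  ring

theorem inner_projL (u x y : E3) (hu : u ≠ 0) :
    inner ℝ (projL u x) (projL u y) = inner ℝ x y - inner ℝ x u * inner ℝ y u / ‖u‖ ^ 2 := by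
  have hU : ‖u‖ ^ 2 ≠ 0 := by positivity
  simp only [projL_apply, inner_sub_left, inner_sub_right, inner_smul_left, inner_smul_right,
    real_inner_self_eq_norm_sq, conj_trivial]
  rw [real_inner_comm y u]
  field_simp
  ring

/-- Three vectors orthogonal to a unit vector have vanishing Gram determinant. -/
theorem gram3_zero (e x y w : E3) (he : ‖e‖ = 1) (hx : inner ℝ x e = 0) (hy : inner ℝ y e = 0)
    (hw : inner ℝ w e = 0) :
    (‖x‖ ^ 2 * ‖y‖ ^ 2 - inner ℝ x y ^ 2) * ‖w‖ ^ 2 =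
      ‖x‖ ^ 2 * inner ℝ y w ^ 2 + ‖y‖ ^ 2 * inner ℝ x w ^ 2
        - 2 * inner ℝ x y * inner ℝ x w * inner ℝ y w := by
  have he' : ‖e‖ ^ 2 = 1 := by rw [he]; norm_num
  rw [normsq3] at he'
  rw [inner3] at hx hy hw
  simp only [inner3, normsq3]
  linear_combination
    ((x 0 * (y 1 * w 2 - y 2 * w 1) - x 1 * (y 0 * w 2 - y 2 * w 0) + x 2 * (y 0 * w 1 - y 1 * w 0)) *
      ((y 1 * w 2 - y 2 * w 1) * e 0 + (y 2 * w 0 - y 0 * w 2) * e 1 + (y 0 * w 1 - y 1 * w 0) * e 2)) * hx +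
    ((x 0 * (y 1 * w 2 - y 2 * w 1) - x 1 * (y 0 * w 2 - y 2 * w 0) + x 2 * (y 0 * w 1 - y 1 * w 0)) *
      ((w 1 * x 2 - w 2 * x 1) * e 0 + (w 2 * x 0 - w 0 * x 2) * e 1 + (w 0 * x 1 - w 1 * x 0) * e 2)) * hy +
    ((x 0 * (y 1 * w 2 - y 2 * w 1) - x 1 * (y 0 * w 2 - y 2 * w 0) + x 2 * (y 0 * w 1 - y 1 * w 0)) *
      ((x 1 * y 2 - x 2 * y 1) * e 0 + (x 2 * y 0 - x 0 * y 2) * e 1 + (x 0 * y 1 - x 1 * y 0) * e 2)) * hw
    - (x 0 * (y 1 * w 2 - y 2 * w 1) - x 1 * (y 0 * w 2 - y 2 * w 0) + x 2 * (y 0 * w 1 - y 1 * w 0)) ^ 2 * he'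

theorem normsq_add_perp (e wc : E3) (he : ‖e‖ = 1) (hw : inner ℝ wc e = 0) :
    ‖e + wc‖ ^ 2 = 1 + ‖wc‖ ^ 2 := by
  rw [norm_add_sq_real, he, real_inner_comm, hw]; ring

theorem add_perp_ne_zero (e wc : E3) (he : ‖e‖ = 1) (hw : inner ℝ wc e = 0) : e + wc ≠ 0 := by
  intro h
  have := normsq_add_perp e wc he hw
  rw [h, norm_zero] at this
  nlinarith [sq_nonneg ‖wc‖]

/-- **Projection identity.** For `x, y, wc ⊥ e`, `‖e‖ = 1`, the projection along `e + wc`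
divides the Gram determinant by `1 + ‖wc‖²`. -/
theorem gram_projL (e x y wc : E3) (he : ‖e‖ = 1) (hx : inner ℝ x e = 0) (hy : inner ℝ y e = 0)
    (hw : inner ℝ wc e = 0) :
    gram (projL (e + wc) x) (projL (e + wc) y) = gram x y / (1 + ‖wc‖ ^ 2) := by
  have hu : e + wc ≠ 0 := add_perp_ne_zero e wc he hw
  have hU : ‖e + wc‖ ^ 2 = 1 + ‖wc‖ ^ 2 := normsq_add_perp e wc he hw
  have hpos : (0 : ℝ) < 1 + ‖wc‖ ^ 2 := by positivity
  have hxu : inner ℝ x (e + wc) = inner ℝ x wc := by rw [inner_add_right, hx, zero_add]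
  have hyu : inner ℝ y (e + wc) = inner ℝ y wc := by rw [inner_add_right, hy, zero_add]
  have h3 := gram3_zero e x y wc he hx hy hw
  unfold gram at *
  rw [← real_inner_self_eq_norm_sq (projL (e + wc) x), ← real_inner_self_eq_norm_sq (projL (e + wc) y),
    inner_projL _ _ _ hu, inner_projL _ _ _ hu, inner_projL _ _ _ hu, hU, hxu, hyu,
    real_inner_self_eq_norm_sq, real_inner_self_eq_norm_sq]
  field_simp
  linear_combination (1 + ‖wc‖ ^ 2) * h3

theorem projL_image_triangle (u P Q R : E3) :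
    (projL u) '' convexHull ℝ ({P, Q, R} : Set E3) =
      convexHull ℝ ({projL u P, projL u Q, projL u R} : Set E3) := by
  rw [LinearMap.image_convexHull, Set.image_insert_eq, Set.image_insert_eq, Set.image_singleton]

/-- Area of the projection of a triangle with edge vectors `⊥ e` along `e + wc`. -/
theorem area_projL_triangle (e wc P X Y : E3) (he : ‖e‖ = 1) (hX : inner ℝ X e = 0)
    (hY : inner ℝ Y e = 0) (hw : inner ℝ wc e = 0) :
    μHE[2] ((projL (e + wc)) '' convexHull ℝ ({P, P + X, P + Y} : Set E3)) =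
      ENNReal.ofReal (Real.sqrt (gram X Y) / (2 * Real.sqrt (1 + ‖wc‖ ^ 2))) := by
  rw [projL_image_triangle, muHE_triangle]
  have h1 : projL (e + wc) (P + X) - projL (e + wc) P = projL (e + wc) X := by
    rw [map_add]; abel
  have h2 : projL (e + wc) (P + Y) - projL (e + wc) P = projL (e + wc) Y := by
    rw [map_add]; abel
  rw [h1, h2, gram_projL e X Y wc he hX hY hw, Real.sqrt_div (gram_nonneg X Y)]
  congr 1
  rw [div_div, mul_comm]

/-- **Part B, lower bound.** The projection along `e + wc` of the piece of the ruled set over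
`[t₁, t₂]` contains a triangle of area `κ ρ₀² (t₂ - t₁) / (2 √(1 + ‖wc‖²))`, where `ρ₀ ≥ 0` is a
lower bound of `R` on `[t₁, t₂]`. -/
theorem piece_proj_lower (e a b p₀ : E3) (he : ‖e‖ = 1) (ha : inner ℝ a e = 0)
    (hb : inner ℝ b e = 0) (L : ℝ) (hL : 0 < L) (R : ℝ → ℝ) (w : ℝ → E3) (wc : E3)
    (hwc : inner ℝ wc e = 0) (t₁ t₂ ρ₀ : ℝ) (h12 : t₁ ≤ t₂) (hρ₀ : 0 ≤ ρ₀)
    (hR : ∀ τ ∈ Set.Icc t₁ t₂, ρ₀ ≤ R τ) :
    ENNReal.ofReal (Real.sqrt (‖a‖ ^ 2 * ‖b‖ ^ 2 - inner ℝ a b ^ 2) *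
        (ρ₀ ^ 2 * (t₂ - t₁) / (2 * Real.sqrt (1 + ‖wc‖ ^ 2)))) ≤
      μHE[2] ((fun y => y - (inner ℝ y (e + wc) / ‖e + wc‖ ^ 2) • (e + wc)) ''
        {x : E3 | ∃ τ ∈ Set.Icc t₁ t₂, ∃ ρ ∈ Set.Icc 0 (R τ), ∃ s : ℝ, abs s ≤ L ∧
          x = p₀ + ρ • (a + τ • b) + s • (e + w τ)}) := by
  rw [projL_fun]
  set X : E3 := ρ₀ • (a + t₁ • b) with hXdef
  set Y : E3 := ρ₀ • (a + t₂ • b) with hYdef
  have hX : inner ℝ X e = 0 := by
    rw [hXdef, inner_smul_left, inner_add_left, inner_smul_left, ha, hb]; simp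
  have hY : inner ℝ Y e = 0 := by
    rw [hYdef, inner_smul_left, inner_add_left, inner_smul_left, ha, hb]; simp
  -- the triangle is contained in the piece
  have hsub : convexHull ℝ ({p₀, p₀ + X, p₀ + Y} : Set E3) ⊆
      {x : E3 | ∃ τ ∈ Set.Icc t₁ t₂, ∃ ρ ∈ Set.Icc 0 (R τ), ∃ s : ℝ, abs s ≤ L ∧
          x = p₀ + ρ • (a + τ • b) + s • (e + w τ)} := by
    rw [Helper57.triangle_eq]
    rintro _ ⟨_, ⟨z, ⟨hz0, hz1, hz2⟩, rfl⟩, rfl⟩
    simp only [Helper57.lin2_apply, add_sub_cancel_left]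
    rcases eq_or_lt_of_le (add_nonneg hz0 hz1) with h0 | hpos
    · have hz0' : z 0 = 0 := by linarith
      have hz1' : z 1 = 0 := by linarith
      refine ⟨t₁, ⟨le_refl _, h12⟩, 0, ⟨le_refl _, le_trans hρ₀ (hR t₁ ⟨le_refl _, h12⟩)⟩, 0,
        by simpa using hL.le, ?_⟩
      rw [hz0', hz1']; simp
    · set τ : ℝ := (z 0 * t₁ + z 1 * t₂) / (z 0 + z 1) with hτ
      have hτ1 : t₁ ≤ τ := by
        rw [hτ, le_div_iff₀ hpos]; nlinarith
      have hτ2 : τ ≤ t₂ := by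
        rw [hτ, div_le_iff₀ hpos]; nlinarith
      have hτmem : τ ∈ Set.Icc t₁ t₂ := ⟨hτ1, hτ2⟩
      refine ⟨τ, hτmem, ρ₀ * (z 0 + z 1), ⟨by positivity, ?_⟩, 0, by simpa using hL.le, ?_⟩
      · calc ρ₀ * (z 0 + z 1) ≤ ρ₀ * 1 := by gcongr
          _ = ρ₀ := mul_one _
          _ ≤ R τ := hR τ hτmem
      · have hτeq : (z 0 + z 1) * τ = z 0 * t₁ + z 1 * t₂ := by
          rw [hτ]; field_simp
        rw [hXdef, hYdef]
        simp only [zero_smul, add_zero, smul_add, smul_smul]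
        rw [mul_assoc ρ₀ (z 0 + z 1) τ, hτeq]
        module
  refine le_trans ?_ (measure_mono (Set.image_mono hsub))
  rw [area_projL_triangle e wc p₀ X Y he hX hY hwc]
  apply ENNReal.ofReal_le_ofReal
  apply le_of_eq
  have hg : gram X Y = (ρ₀ ^ 2 * (t₂ - t₁)) ^ 2 * (‖a‖ ^ 2 * ‖b‖ ^ 2 - inner ℝ a b ^ 2) := by
    unfold gram
    rw [hXdef, hYdef]
    simp only [norm_smul, inner_smul_left, inner_smul_right, conj_trivial, mul_pow,
      ← real_inner_self_eq_norm_sq, inner_add_left, inner_add_right, Real.norm_eq_abs, sq_abs]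
    rw [real_inner_comm a b]
    ring
  have hnn : 0 ≤ ρ₀ ^ 2 * (t₂ - t₁) := mul_nonneg (sq_nonneg _) (sub_nonneg.mpr h12)
  rw [hg, Real.sqrt_mul (sq_nonneg _), Real.sqrt_sq hnn]
  ring

end Crest.Agent.S0328.Helper12
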