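import Mathlib

/-!
# FTC facts for S0328 (helper62, row 211)

* `integral_deriv_eq_sub`: `∫ x in σ..τ, w' x = w τ - w σ` for `σ τ ∈ [α, β]` when `w` has derivative
  `w'` within `[α, β]` and `w'` is continuous on `[α, β]`;
* `w_sub_decomp`: if `w' t = lam t • (a + t • b)` then `w τ - w σ = A • a + B • b` with
  `|A| ≤ Λ |τ - σ|` and `|B - ξ A| ≤ d Λ |τ - σ|` whenever `|x - ξ| ≤ d` between `σ` and `τ`.
-/

set_option autoImplicit false
open MeasureTheory Set
open scoped ENNReal

namespace Crest.Agent.S0328.Helper62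

section ftc
variable {F : Type*} [NormedAddCommGroup F] [NormedSpace ℝ F] [CompleteSpace F]

omit [CompleteSpace F] in
theorem continuousOn_of_hasDerivWithinAt {α β : ℝ} {w : ℝ → F} {w' : ℝ → F}
    (hw' : ∀ t ∈ Icc α β, HasDerivWithinAt w (w' t) (Icc α β) t) : ContinuousOn w (Icc α β) :=
  fun t ht => (hw' t ht).continuousWithinAt

/-- FTC on a subinterval, for a function differentiable within `[α, β]`. -/
theorem integral_deriv_eq_sub {α β : ℝ} {w : ℝ → F} {w' : ℝ → F}
    (hw' : ∀ t ∈ Icc α β, HasDerivWithinAt w (w' t) (Icc α β) t)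
    (hc : ContinuousOn w' (Icc α β)) {σ τ : ℝ} (hσ : σ ∈ Icc α β) (hτ : τ ∈ Icc α β) :
    ∫ x in σ..τ, w' x = w τ - w σ := by
  have key : ∀ {σ τ : ℝ}, σ ∈ Icc α β → τ ∈ Icc α β → σ ≤ τ → ∫ x in σ..τ, w' x = w τ - w σ := by
    intro σ τ hσ hτ hle
    have hsub : Icc σ τ ⊆ Icc α β := Icc_subset_Icc hσ.1 hτ.2
    apply intervalIntegral.integral_eq_sub_of_hasDeriv_right_of_le hle
    · exact (continuousOn_of_hasDerivWithinAt hw').mono hsub
    · intro x hx
      have hx' : x ∈ Icc α β := hsub ⟨hx.1.le, hx.2.le⟩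
      have h1 : α < x := lt_of_le_of_lt hσ.1 hx.1
      have h2 : x < β := lt_of_lt_of_le hx.2 hτ.2
      exact ((hw' x hx').hasDerivAt (Icc_mem_nhds h1 h2)).hasDerivWithinAt
    · apply ContinuousOn.intervalIntegrable
      rw [uIcc_of_le hle]
      exact hc.mono hsub
  rcases le_total σ τ with h | h
  · exact key hσ hτ h
  · rw [intervalIntegral.integral_symm, key hτ hσ h]; abel

end ftc

section decomp
variable {F : Type*} [NormedAddCommGroup F] [NormedSpace ℝ F] [CompleteSpace F]

/-- The increment of `w` in the basis `(a, b)`, with the bounds used for the thin triangles. -/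
theorem w_sub_decomp (a b : F) {α β : ℝ} {w : ℝ → F} {lam : ℝ → ℝ}
    (hlam : ContinuousOn lam (Icc α β))
    (hw' : ∀ t ∈ Icc α β, HasDerivWithinAt w (lam t • (a + t • b)) (Icc α β) t)
    {Λ : ℝ} (hΛ : ∀ t ∈ Icc α β, |lam t| ≤ Λ)
    {σ τ : ℝ} (hσ : σ ∈ Icc α β) (hτ : τ ∈ Icc α β) :
    ∃ A B : ℝ, w τ - w σ = A • a + B • b ∧ |A| ≤ Λ * |τ - σ| ∧
      ∀ ξ d : ℝ, (∀ x ∈ uIcc σ τ, |x - ξ| ≤ d) → |B - ξ * A| ≤ d * Λ * |τ - σ| := by
  have hsub : uIcc σ τ ⊆ Icc α β := uIcc_subset_Icc hσ hτ
  have hid : ContinuousOn (fun x : ℝ => x) (Icc α β) := continuousOn_id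
  have hxl : ContinuousOn (fun x : ℝ => x * lam x) (Icc α β) := hid.mul hlam
  have hc : ContinuousOn (fun x : ℝ => lam x • (a + x • b)) (Icc α β) :=
    hlam.smul (continuousOn_const.add (hid.smul continuousOn_const))
  have i1 : IntervalIntegrable lam volume σ τ := (hlam.mono hsub).intervalIntegrable
  have i2 : IntervalIntegrable (fun x : ℝ => x * lam x) volume σ τ :=
    (hxl.mono hsub).intervalIntegrable
  refine ⟨∫ x in σ..τ, lam x, ∫ x in σ..τ, x * lam x, ?_, ?_, ?_⟩
  · rw [← integral_deriv_eq_sub hw' hc hσ hτ]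
    have : (fun x : ℝ => lam x • (a + x • b)) = fun x => lam x • a + (x * lam x) • b := by
      funext x; rw [smul_add, smul_smul, mul_comm]
    have j1 : IntervalIntegrable (fun x : ℝ => lam x • a) volume σ τ :=
      ((hlam.smul continuousOn_const).mono hsub).intervalIntegrable
    have j2 : IntervalIntegrable (fun x : ℝ => (x * lam x) • b) volume σ τ :=
      ((hxl.smul continuousOn_const).mono hsub).intervalIntegrable
    rw [this, intervalIntegral.integral_add j1 j2,
      intervalIntegral.integral_smul_const, intervalIntegral.integral_smul_const]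
  · have := intervalIntegral.norm_integral_le_of_norm_le_const (a := σ) (b := τ) (C := Λ)
      (f := lam) (by
        intro x hx
        rw [Real.norm_eq_abs]
        exact hΛ x (hsub (uIoc_subset_uIcc hx)))
    rwa [Real.norm_eq_abs] at this
  · intro ξ d hd
    have e1 : (∫ x in σ..τ, x * lam x) - ξ * ∫ x in σ..τ, lam x
        = ∫ x in σ..τ, (x - ξ) * lam x := by
      rw [← intervalIntegral.integral_const_mul, ← intervalIntegral.integral_sub i2 (i1.const_mul ξ)]
      congr 1
      funext x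
      ring
    rw [e1]
    have := intervalIntegral.norm_integral_le_of_norm_le_const (a := σ) (b := τ) (C := d * Λ)
      (f := fun x => (x - ξ) * lam x) (by
        intro x hx
        have hx' := uIoc_subset_uIcc hx
        rw [Real.norm_eq_abs, abs_mul]
        exact mul_le_mul (hd x hx') (hΛ x (hsub hx')) (abs_nonneg _)
          (le_trans (abs_nonneg _) (hd x hx')))
    rwa [Real.norm_eq_abs] at this

end decomp

end Crest.Agent.S0328.Helper62
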