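import Mathlib
import Crest.Agent.Lib.S0324.Helper62Area

/-!
# Gram determinants and projections along a vector (helper62, S0328 / row 211)

`namespace Crest.Agent.S0328.Helper62`; `gram` is `Crest.Agent.S0324.Helper62.gram`
(`gram a b = ‖a‖ ^ 2 * ‖b‖ ^ 2 - inner ℝ a b ^ 2`, any real inner product space).

* `proj u y = y - (inner ℝ y u / ‖u‖ ^ 2) • u` with `proj_add`, `proj_sub`, `proj_smul`, `proj_self`,
  `proj_add_smul`, `inner_proj`, `eq_proj_add`, `proj_eq_self`;
* `gram_lincomb`, `gram_proj`, `gram3_zero`, `gram_proj_perp`, `gram_proj_tri`;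
* `gram_pos_of_linearIndependent`, `affineIndependent_of_gram_pos`.
-/

set_option autoImplicit false
open MeasureTheory
open scoped ENNReal

namespace Crest.Agent.S0328.Helper62

open Crest.Agent.S0324.Helper62 (E2 E3 gram gram_nonneg stdTri)


section general
variable {F : Type*} [NormedAddCommGroup F] [InnerProductSpace ℝ F]

/-- projection along `u` onto `u^⊥` (the map of S0328) -/
noncomputable def proj (u y : F) : F := y - (inner ℝ y u / ‖u‖ ^ 2) • u

theorem proj_add (u x y : F) : proj u (x + y) = proj u x + proj u y := by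
  unfold proj; rw [inner_add_left, add_div, add_smul]; abel

theorem proj_smul (u : F) (s : ℝ) (x : F) : proj u (s • x) = s • proj u x := by
  unfold proj; rw [real_inner_smul_left, smul_sub, smul_smul, mul_div_assoc]

theorem proj_sub (u x y : F) : proj u (x - y) = proj u x - proj u y := by
  unfold proj; rw [inner_sub_left, sub_div, sub_smul]; abel

theorem proj_self (u : F) (hu : u ≠ 0) : proj u u = 0 := by
  unfold proj
  rw [real_inner_self_eq_norm_sq, div_self (pow_ne_zero 2 (norm_ne_zero_iff.mpr hu)), one_smul,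
    sub_self]

theorem proj_add_smul (u : F) (hu : u ≠ 0) (y : F) (s : ℝ) : proj u (y + s • u) = proj u y := by
  rw [proj_add, proj_smul, proj_self u hu, smul_zero, add_zero]

theorem inner_proj (u : F) (hu : u ≠ 0) (y : F) : inner ℝ (proj u y) u = 0 := by
  unfold proj
  have h : ‖u‖ ^ 2 ≠ 0 := pow_ne_zero 2 (norm_ne_zero_iff.mpr hu)
  rw [inner_sub_left, real_inner_smul_left, real_inner_self_eq_norm_sq, div_mul_cancel₀ _ h,
    sub_self]

theorem eq_proj_add (u y : F) : y = proj u y + (inner ℝ y u / ‖u‖ ^ 2) • u := by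
  unfold proj; abel

/-- Gram determinant of linear combinations -/
theorem gram_lincomb (a b : F) (x1 y1 x2 y2 : ℝ) :
    gram (x1 • a + y1 • b) (x2 • a + y2 • b) = (x1 * y2 - x2 * y1) ^ 2 * gram a b := by
  unfold gram
  simp only [← real_inner_self_eq_norm_sq, inner_add_left, inner_add_right, real_inner_smul_left,
    real_inner_smul_right, real_inner_comm a b]
  ring

/-- Gram determinant after projecting along `u`. -/
theorem gram_proj (u x y : F) (hu : u ≠ 0) :
    gram (proj u x) (proj u y) * ‖u‖ ^ 2 =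
      ‖u‖ ^ 2 * gram x y - (‖x‖ ^ 2 * inner ℝ y u ^ 2 + ‖y‖ ^ 2 * inner ℝ x u ^ 2
        - 2 * inner ℝ x y * inner ℝ x u * inner ℝ y u) := by
  have h : ‖u‖ ^ 2 ≠ 0 := pow_ne_zero 2 (norm_ne_zero_iff.mpr hu)
  unfold gram proj
  simp only [← real_inner_self_eq_norm_sq, inner_sub_left, inner_sub_right, real_inner_smul_left,
    real_inner_smul_right, real_inner_comm x u, real_inner_comm y u]
  rw [← real_inner_self_eq_norm_sq] at h
  field_simp
  ring

end general



theorem inner_E3 (x y : E3) : inner ℝ x y = x 0 * y 0 + x 1 * y 1 + x 2 * y 2 := by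
  simp [PiLp.inner_apply, Fin.sum_univ_three]
  ring

/-- three vectors orthogonal to a unit vector of `ℝ³` have vanishing Gram determinant -/
theorem gram3_zero (e x y w : E3) (he : ‖e‖ = 1) (hx : inner ℝ x e = 0) (hy : inner ℝ y e = 0)
    (hw : inner ℝ w e = 0) :
    ‖w‖ ^ 2 * gram x y - (‖x‖ ^ 2 * inner ℝ y w ^ 2 + ‖y‖ ^ 2 * inner ℝ x w ^ 2
        - 2 * inner ℝ x y * inner ℝ x w * inner ℝ y w) = 0 := by
  have he2 : inner ℝ e e = 1 := by rw [real_inner_self_eq_norm_sq, he]; norm_num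
  unfold gram
  simp only [← real_inner_self_eq_norm_sq]
  rw [inner_E3] at hx hy hw he2
  simp only [inner_E3]
  set D : ℝ := x 0 * (y 1 * w 2 - y 2 * w 1) - x 1 * (y 0 * w 2 - y 2 * w 0)
    + x 2 * (y 0 * w 1 - y 1 * w 0) with hD
  have hD0 : D = 0 := by
    rw [hD]
    linear_combination
      ((y 1 * w 2 - y 2 * w 1) * e 0 + (y 2 * w 0 - y 0 * w 2) * e 1 + (y 0 * w 1 - y 1 * w 0) * e 2) * hx
      + ((w 1 * x 2 - w 2 * x 1) * e 0 + (w 2 * x 0 - w 0 * x 2) * e 1 + (w 0 * x 1 - w 1 * x 0) * e 2) * hy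
      + ((x 1 * y 2 - x 2 * y 1) * e 0 + (x 2 * y 0 - x 0 * y 2) * e 1 + (x 0 * y 1 - x 1 * y 0) * e 2) * hw
      - (x 0 * (y 1 * w 2 - y 2 * w 1) - x 1 * (y 0 * w 2 - y 2 * w 0)
          + x 2 * (y 0 * w 1 - y 1 * w 0)) * he2
  have key : (w 0 * w 0 + w 1 * w 1 + w 2 * w 2) *
      ((x 0 * x 0 + x 1 * x 1 + x 2 * x 2) * (y 0 * y 0 + y 1 * y 1 + y 2 * y 2) -
        (x 0 * y 0 + x 1 * y 1 + x 2 * y 2) ^ 2) -
      ((x 0 * x 0 + x 1 * x 1 + x 2 * x 2) * (y 0 * w 0 + y 1 * w 1 + y 2 * w 2) ^ 2 +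
          (y 0 * y 0 + y 1 * y 1 + y 2 * y 2) * (x 0 * w 0 + x 1 * w 1 + x 2 * w 2) ^ 2 -
        2 * (x 0 * y 0 + x 1 * y 1 + x 2 * y 2) * (x 0 * w 0 + x 1 * w 1 + x 2 * w 2) *
          (y 0 * w 0 + y 1 * w 1 + y 2 * w 2)) = D ^ 2 := by
    rw [hD]; ring
  rw [key, hD0]; norm_num

section general
variable {F : Type*} [NormedAddCommGroup F] [InnerProductSpace ℝ F]

theorem norm_sq_add_perp (e w : F) (he : ‖e‖ = 1) (hw : inner ℝ w e = 0) :
    ‖e + w‖ ^ 2 = 1 + ‖w‖ ^ 2 := by
  rw [← real_inner_self_eq_norm_sq, inner_add_left, inner_add_right, inner_add_right,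
    real_inner_self_eq_norm_sq, real_inner_self_eq_norm_sq, hw, real_inner_comm, hw, he]
  ring

theorem add_perp_ne_zero (e w : F) (he : ‖e‖ = 1) (hw : inner ℝ w e = 0) : e + w ≠ 0 := by
  intro h
  have := norm_sq_add_perp e w he hw
  rw [h, norm_zero] at this
  nlinarith [sq_nonneg ‖w‖]

end general



section general
variable {F : Type*} [NormedAddCommGroup F] [InnerProductSpace ℝ F]

theorem gram_pos_of_linearIndependent (a b : F) (h : LinearIndependent ℝ ![a, b]) :
    0 < gram a b := by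
  rw [LinearIndependent.pair_iff] at h
  rcases (gram_nonneg a b).lt_or_eq with h1 | h1
  · exact h1
  · exfalso
    have h2 : ‖(-inner ℝ a b) • a + (‖a‖ ^ 2) • b‖ ^ 2 = ‖a‖ ^ 2 * gram a b := by
      unfold gram
      simp only [← real_inner_self_eq_norm_sq, inner_add_left, inner_add_right,
        real_inner_smul_left, real_inner_smul_right, real_inner_comm a b]
      ring
    rw [← h1, mul_zero] at h2
    have h3 : (-inner ℝ a b) • a + (‖a‖ ^ 2) • b = 0 := by
      rw [← norm_eq_zero]; exact pow_eq_zero_iff (n := 2) (by norm_num) |>.mp h2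
    have h4 := (h _ _ h3).2
    have ha : a = 0 := by
      rw [← norm_eq_zero]; exact pow_eq_zero_iff (n := 2) (by norm_num) |>.mp h4
    have h5 := (h 1 0 (by rw [ha]; simp)).1
    exact one_ne_zero h5

theorem affineIndependent_of_gram_pos (p q r : F) (h : 0 < gram (q - p) (r - p)) :
    AffineIndependent ℝ ![p, q, r] := by
  rw [affineIndependent_iff_not_collinear_set]
  intro hcol
  rw [collinear_iff_of_mem (p₀ := p) (by simp)] at hcol
  obtain ⟨v, hv⟩ := hcol
  obtain ⟨r1, h1⟩ := hv q (by simp)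
  obtain ⟨r2, h2⟩ := hv r (by simp)
  have e1 : q - p = r1 • v := by rw [h1]; simp
  have e2 : r - p = r2 • v := by rw [h2]; simp
  rw [e1, e2] at h
  have : gram (r1 • v) (r2 • v) = 0 := by
    unfold gram
    simp only [← real_inner_self_eq_norm_sq, real_inner_smul_left, real_inner_smul_right]
    ring
  linarith

end general


section general
variable {F : Type*} [NormedAddCommGroup F] [InnerProductSpace ℝ F]

theorem proj_eq_self (u y : F) (h : inner ℝ y u = 0) : proj u y = y := by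
  unfold proj; rw [h, zero_div, zero_smul, sub_zero]

end general

/-- Projecting along `e + w` divides the Gram determinant of vectors of `e^⊥` by `1 + ‖w‖²`. -/
theorem gram_proj_perp (e x y w : E3) (he : ‖e‖ = 1) (hx : inner ℝ x e = 0) (hy : inner ℝ y e = 0)
    (hw : inner ℝ w e = 0) :
    gram (proj (e + w) x) (proj (e + w) y) = gram x y / (1 + ‖w‖ ^ 2) := by
  have hu := add_perp_ne_zero e w he hw
  have h1 := gram_proj (e + w) x y hu
  have h2 := gram3_zero e x y w he hx hy hw
  rw [norm_sq_add_perp e w he hw, inner_add_right, inner_add_right, hx, hy, zero_add, zero_add] at h1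
  rw [eq_div_iff (by positivity)]
  linarith

/-- Gram determinant of the projected triangle with vertices `p₀ + Xₖ • a + Yₖ • b`. -/
theorem gram_proj_tri (e a b w p₀ : E3) (he : ‖e‖ = 1) (ha : inner ℝ a e = 0)
    (hb : inner ℝ b e = 0) (hw : inner ℝ w e = 0) (X1 Y1 X2 Y2 X3 Y3 : ℝ) :
    gram (proj (e + w) (p₀ + X2 • a + Y2 • b) - proj (e + w) (p₀ + X1 • a + Y1 • b))
        (proj (e + w) (p₀ + X3 • a + Y3 • b) - proj (e + w) (p₀ + X1 • a + Y1 • b)) =
      ((X2 - X1) * (Y3 - Y1) - (X3 - X1) * (Y2 - Y1)) ^ 2 * (gram a b / (1 + ‖w‖ ^ 2)) := by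
  have e2 : p₀ + X2 • a + Y2 • b - (p₀ + X1 • a + Y1 • b) = (X2 - X1) • a + (Y2 - Y1) • b := by
    module
  have e3 : p₀ + X3 • a + Y3 • b - (p₀ + X1 • a + Y1 • b) = (X3 - X1) • a + (Y3 - Y1) • b := by
    module
  rw [← proj_sub, ← proj_sub, e2, e3, proj_add, proj_add, proj_smul, proj_smul, proj_smul,
    proj_smul, gram_lincomb, gram_proj_perp e a b w he ha hb hw]

end Crest.Agent.S0328.Helper62
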