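import Mathlib
import Crest.Agent.Lib.S0324.Helper62Area
import Crest.Agent.Lib.S0328.Helper62Gram
import Crest.Agent.Lib.S0328.Helper62Calc

/-!
# Per-piece geometry for S0328 (helper62, row 211)

For one piece `[σ₀, σ₁]` of the partition with tag `c` and axis `u = e + w c`:
* `V1 V2 V3`: vertices (before projection) of a thin triangle in the plane `p₀ + span(a, b)`;
  `thin_tri_mem` (barycentric coordinates), `gram_thin`, `piece_mem` (the projection of every point of the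
  piece lies in the projected thin triangle);
* `I1 I2 I3`: the inner triangle; `gram_inner`, `inner_tri_subset`;
* `area_of_gram`: area of a triangle from its Gram determinant.
-/

set_option autoImplicit false
open MeasureTheory Set
open scoped ENNReal

namespace Crest.Agent.S0328.Helper62

open Crest.Agent.S0324.Helper62 (E2 E3 gram gram_nonneg stdTri convexHull_triple_eq_image
  triangle_area triangle_area_toReal)

/-- a barycentric combination lies in the triangle -/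
theorem mem_tri (P1 P2 P3 : E3) (x0 x1 : ℝ) (h0 : 0 ≤ x0) (h1 : 0 ≤ x1) (h01 : x0 + x1 ≤ 1) :
    P1 + (x0 • (P2 - P1) + x1 • (P3 - P1)) ∈ convexHull ℝ ({P1, P2, P3} : Set E3) := by
  rw [convexHull_triple_eq_image]
  exact ⟨!₂[x0, x1], by simp [stdTri, h0, h1, h01], by simp⟩

/-- vertices of the thin triangle in `(a, b)`-coordinates (before projection):
apex `(-2ν, -2νσ₀ - Δν)`, far side `X = Ā` between the lines `Y = σ₀ X - Δν`, `Y = σ₁ X + Δν`. -/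
noncomputable def V1 (p₀ a b : E3) (σ0 σ1 ν _Abar : ℝ) : E3 :=
  p₀ + (-2 * ν) • a + (σ0 * (-2 * ν) - (σ1 - σ0) * ν) • b
noncomputable def V2 (p₀ a b : E3) (σ0 σ1 ν Abar : ℝ) : E3 :=
  p₀ + Abar • a + (σ0 * Abar - (σ1 - σ0) * ν) • b
noncomputable def V3 (p₀ a b : E3) (σ0 σ1 ν Abar : ℝ) : E3 :=
  p₀ + Abar • a + (σ1 * Abar + (σ1 - σ0) * ν) • b

/-- barycentric coordinates in the thin triangle -/
theorem thin_tri_mem (u p₀ a b : E3) (σ0 σ1 ν Abar : ℝ) (hΔ : σ0 < σ1) (hW : 0 < Abar + 2 * ν)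
    (X Y : ℝ) (hX : X ≤ Abar) (hY0 : 0 ≤ Y - σ0 * X + (σ1 - σ0) * ν)
    (hY1 : 0 ≤ σ1 * X + (σ1 - σ0) * ν - Y) :
    proj u (p₀ + X • a + Y • b) ∈ convexHull ℝ
      {proj u (V1 p₀ a b σ0 σ1 ν Abar), proj u (V2 p₀ a b σ0 σ1 ν Abar),
        proj u (V3 p₀ a b σ0 σ1 ν Abar)} := by
  have hΔ' : 0 < σ1 - σ0 := sub_pos.mpr hΔ
  set W := Abar + 2 * ν with hWdef
  set x0 := (σ1 * X + (σ1 - σ0) * ν - Y) / ((σ1 - σ0) * W) with hx0
  set x1 := (Y - σ0 * X + (σ1 - σ0) * ν) / ((σ1 - σ0) * W) with hx1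
  have hden : 0 < (σ1 - σ0) * W := mul_pos hΔ' hW
  have h0 : 0 ≤ x0 := div_nonneg hY1 hden.le
  have h1 : 0 ≤ x1 := div_nonneg hY0 hden.le
  have hsum : x0 + x1 = (X + 2 * ν) / W := by
    rw [hx0, hx1]; field_simp; ring
  have h01 : x0 + x1 ≤ 1 := by
    rw [hsum, div_le_one hW]; linarith
  have hXe : X = -2 * ν + x0 * W + x1 * W := by
    have : (x0 + x1) * W = X + 2 * ν := by rw [hsum]; field_simp
    linarith
  have hYe : Y = (σ0 * (-2 * ν) - (σ1 - σ0) * ν) + x0 * (σ0 * W) + x1 * (σ1 * W) := by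
    rw [hx0, hx1]; field_simp; ring
  have key : p₀ + X • a + Y • b =
      V1 p₀ a b σ0 σ1 ν Abar + (x0 • (V2 p₀ a b σ0 σ1 ν Abar - V1 p₀ a b σ0 σ1 ν Abar)
        + x1 • (V3 p₀ a b σ0 σ1 ν Abar - V1 p₀ a b σ0 σ1 ν Abar)) := by
    have e2 : V2 p₀ a b σ0 σ1 ν Abar - V1 p₀ a b σ0 σ1 ν Abar = W • a + (σ0 * W) • b := by
      unfold V1 V2; rw [hWdef]; module
    have e3 : V3 p₀ a b σ0 σ1 ν Abar - V1 p₀ a b σ0 σ1 ν Abar = W • a + (σ1 * W) • b := by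
      unfold V1 V3; rw [hWdef]; module
    rw [e2, e3]
    conv_lhs => rw [hXe, hYe]
    unfold V1
    module
  rw [key, proj_add, proj_add, proj_smul, proj_smul, proj_sub, proj_sub]
  exact mem_tri _ _ _ x0 x1 h0 h1 h01

/-- Gram determinant of the projected thin triangle. -/
theorem gram_thin (e a b w p₀ : E3) (he : ‖e‖ = 1) (ha : inner ℝ a e = 0)
    (hb : inner ℝ b e = 0) (hw : inner ℝ w e = 0) (σ0 σ1 ν Abar : ℝ) :
    gram (proj (e + w) (V2 p₀ a b σ0 σ1 ν Abar) - proj (e + w) (V1 p₀ a b σ0 σ1 ν Abar))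
        (proj (e + w) (V3 p₀ a b σ0 σ1 ν Abar) - proj (e + w) (V1 p₀ a b σ0 σ1 ν Abar)) =
      ((σ1 - σ0) * (Abar + 2 * ν) ^ 2) ^ 2 * (gram a b / (1 + ‖w‖ ^ 2)) := by
  unfold V1 V2 V3
  rw [gram_proj_tri e a b w p₀ he ha hb hw]
  congr 1
  ring

/-- The projection (along `e + w c`) of every point of the piece lies in the thin triangle. -/
theorem piece_mem (e a b p₀ : E3) {α β : ℝ} {w : ℝ → E3} {lam : ℝ → ℝ}
    (hlam : ContinuousOn lam (Icc α β))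
    (hw' : ∀ t ∈ Icc α β, HasDerivWithinAt w (lam t • (a + t • b)) (Icc α β) t)
    {Λ : ℝ} (hΛ : ∀ t ∈ Icc α β, |lam t| ≤ Λ) {L : ℝ} (hL : 0 < L)
    {σ0 σ1 c : ℝ} (h0 : α ≤ σ0) (h01 : σ0 < σ1) (h1 : σ1 ≤ β) (hc : c ∈ Icc σ0 σ1)
    (hu : e + w c ≠ 0) {Rbar : ℝ} (hRbar : 0 ≤ Rbar)
    {τ ρ s : ℝ} (hτ : τ ∈ Icc σ0 σ1) (hρ : ρ ∈ Icc 0 Rbar) (hs : |s| ≤ L) :
    proj (e + w c) (p₀ + ρ • (a + τ • b) + s • (e + w τ)) ∈ convexHull ℝ
      {proj (e + w c) (V1 p₀ a b σ0 σ1 ((L * Λ + 1) * (σ1 - σ0)) (Rbar + L * Λ * (σ1 - σ0))),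
        proj (e + w c) (V2 p₀ a b σ0 σ1 ((L * Λ + 1) * (σ1 - σ0)) (Rbar + L * Λ * (σ1 - σ0))),
        proj (e + w c) (V3 p₀ a b σ0 σ1 ((L * Λ + 1) * (σ1 - σ0)) (Rbar + L * Λ * (σ1 - σ0)))} := by
  have hsub : Icc σ0 σ1 ⊆ Icc α β := Icc_subset_Icc h0 h1
  have hΔ : 0 < σ1 - σ0 := sub_pos.mpr h01
  have hΛ0 : 0 ≤ Λ := le_trans (abs_nonneg _) (hΛ c (hsub hc))
  obtain ⟨A, B, hAB, hA, hB⟩ := w_sub_decomp a b hlam hw' hΛ (hsub hc) (hsub hτ)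
  have hτc : |τ - c| ≤ σ1 - σ0 := by
    rw [abs_le]; constructor <;> linarith [hτ.1, hτ.2, hc.1, hc.2]
  have hA' : |A| ≤ Λ * (σ1 - σ0) := hA.trans (mul_le_mul_of_nonneg_left hτc hΛ0)
  have huIcc : uIcc c τ ⊆ Icc σ0 σ1 := uIcc_subset_Icc hc hτ
  have hB0 : |B - σ0 * A| ≤ Λ * (σ1 - σ0) ^ 2 := by
    have := hB σ0 (σ1 - σ0) (by
      intro x hx
      have hx' := huIcc hx
      rw [abs_le]; constructor <;> linarith [hx'.1, hx'.2])
    refine this.trans ?_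
    have : (σ1 - σ0) * Λ * |τ - c| ≤ (σ1 - σ0) * Λ * (σ1 - σ0) :=
      mul_le_mul_of_nonneg_left hτc (mul_nonneg hΔ.le hΛ0)
    nlinarith
  have hB1 : |B - σ1 * A| ≤ Λ * (σ1 - σ0) ^ 2 := by
    have := hB σ1 (σ1 - σ0) (by
      intro x hx
      have hx' := huIcc hx
      rw [abs_le]; constructor <;> linarith [hx'.1, hx'.2])
    refine this.trans ?_
    have : (σ1 - σ0) * Λ * |τ - c| ≤ (σ1 - σ0) * Λ * (σ1 - σ0) :=
      mul_le_mul_of_nonneg_left hτc (mul_nonneg hΔ.le hΛ0)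
    nlinarith
  have hwτ : w τ = w c + (A • a + B • b) := by rw [← hAB]; abel
  have hx : p₀ + ρ • (a + τ • b) + s • (e + w τ) =
      (p₀ + (ρ + s * A) • a + (ρ * τ + s * B) • b) + s • (e + w c) := by
    rw [hwτ]; module
  rw [hx, proj_add_smul _ hu]
  have hsA : |s * A| ≤ L * (Λ * (σ1 - σ0)) := by
    rw [abs_mul]; exact mul_le_mul hs hA' (abs_nonneg _) hL.le
  have hsB0 : |s * (B - σ0 * A)| ≤ L * (Λ * (σ1 - σ0) ^ 2) := by
    rw [abs_mul]; exact mul_le_mul hs hB0 (abs_nonneg _) hL.le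
  have hsB1 : |s * (B - σ1 * A)| ≤ L * (Λ * (σ1 - σ0) ^ 2) := by
    rw [abs_mul]; exact mul_le_mul hs hB1 (abs_nonneg _) hL.le
  have hLΛ : 0 ≤ L * Λ := mul_nonneg hL.le hΛ0
  apply thin_tri_mem _ _ _ _ _ _ _ _ h01
  · nlinarith [mul_nonneg hLΛ hΔ.le]
  · have := (abs_le.mp hsA).2
    nlinarith [hρ.2]
  · have h3 := (abs_le.mp hsB0).1
    have h4 : 0 ≤ ρ * (τ - σ0) := mul_nonneg hρ.1 (sub_nonneg.mpr hτ.1)
    nlinarith
  · have h3 := (abs_le.mp hsB1).2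
    have h4 : 0 ≤ ρ * (σ1 - τ) := mul_nonneg hρ.1 (sub_nonneg.mpr hτ.2)
    nlinarith

/-- vertices of the inner triangle (before projection) -/
noncomputable def I1 (p₀ a b : E3) : E3 := p₀ + (0 : ℝ) • a + (0 : ℝ) • b
noncomputable def I2 (p₀ a b : E3) (σ0 r : ℝ) : E3 := p₀ + r • a + (r * σ0) • b
noncomputable def I3 (p₀ a b : E3) (σ1 r : ℝ) : E3 := p₀ + r • a + (r * σ1) • b

theorem gram_inner (e a b w p₀ : E3) (he : ‖e‖ = 1) (ha : inner ℝ a e = 0)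
    (hb : inner ℝ b e = 0) (hw : inner ℝ w e = 0) (σ0 σ1 r : ℝ) :
    gram (proj (e + w) (I2 p₀ a b σ0 r) - proj (e + w) (I1 p₀ a b))
        (proj (e + w) (I3 p₀ a b σ1 r) - proj (e + w) (I1 p₀ a b)) =
      ((σ1 - σ0) * r ^ 2) ^ 2 * (gram a b / (1 + ‖w‖ ^ 2)) := by
  unfold I1 I2 I3
  rw [gram_proj_tri e a b w p₀ he ha hb hw]
  congr 1
  ring

/-- The projected inner triangle is contained in the projection of the piece (its `s = 0` part). -/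
theorem inner_tri_subset (u p₀ a b : E3) (σ0 σ1 r : ℝ) (h01 : σ0 ≤ σ1) (hr : 0 ≤ r) :
    convexHull ℝ {proj u (I1 p₀ a b), proj u (I2 p₀ a b σ0 r), proj u (I3 p₀ a b σ1 r)} ⊆
      proj u '' {x | ∃ τ ∈ Icc σ0 σ1, ∃ ρ ∈ Icc 0 r, x = p₀ + ρ • (a + τ • b)} := by
  rw [convexHull_triple_eq_image]
  rintro _ ⟨x, hx, rfl⟩
  simp only [stdTri, Set.mem_ofPred_eq] at hx
  obtain ⟨hx0, hx1, hx01⟩ := hx
  have key : proj u (I1 p₀ a b) + (x 0 • (proj u (I2 p₀ a b σ0 r) - proj u (I1 p₀ a b))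
      + x 1 • (proj u (I3 p₀ a b σ1 r) - proj u (I1 p₀ a b)))
      = proj u (p₀ + (r * (x 0 + x 1)) • a + (r * (x 0 * σ0 + x 1 * σ1)) • b) := by
    rw [← proj_sub, ← proj_sub, ← proj_smul, ← proj_smul, ← proj_add, ← proj_add]
    congr 1
    unfold I1 I2 I3
    module
  show proj u (I1 p₀ a b) + (x 0 • (proj u (I2 p₀ a b σ0 r) - proj u (I1 p₀ a b))
      + x 1 • (proj u (I3 p₀ a b σ1 r) - proj u (I1 p₀ a b))) ∈ _
  rw [key]
  refine ⟨_, ?_, rfl⟩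
  rcases (add_nonneg hx0 hx1).eq_or_lt with h | h
  · refine ⟨σ0, ⟨le_rfl, h01⟩, 0, ⟨le_rfl, hr⟩, ?_⟩
    have h0 : x 0 = 0 := by linarith
    have h1 : x 1 = 0 := by linarith
    rw [h0, h1]
    module
  · refine ⟨(x 0 * σ0 + x 1 * σ1) / (x 0 + x 1), ⟨?_, ?_⟩, r * (x 0 + x 1), ⟨?_, ?_⟩, ?_⟩
    · rw [le_div_iff₀ h]; nlinarith
    · rw [div_le_iff₀ h]; nlinarith
    · positivity
    · nlinarith
    · have : r * (x 0 + x 1) * ((x 0 * σ0 + x 1 * σ1) / (x 0 + x 1)) = r * (x 0 * σ0 + x 1 * σ1) := by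
        field_simp
      rw [smul_add, smul_smul, this]
      module

/-- area of a triangle whose Gram determinant is `d² · (gram a b / (1 + n²))` -/
theorem area_of_gram (p q r a b : E3) (d n : ℝ) (hd : 0 ≤ d)
    (h : gram (q - p) (r - p) = d ^ 2 * (gram a b / (1 + n ^ 2))) :
    ((μHE[2] : Measure E3) (convexHull ℝ {p, q, r})).toReal =
      Real.sqrt (gram a b) * (d / (2 * Real.sqrt (1 + n ^ 2))) := by
  rw [triangle_area_toReal, h, Real.sqrt_mul (sq_nonneg d), Real.sqrt_sq hd,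
    Real.sqrt_div (gram_nonneg a b)]
  ring

end Crest.Agent.S0328.Helper62
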