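import Mathlib

/-!
# Riemann sums over `Fin`-indexed partitions (helper for S0328, row 211)

Partitions are given exactly in the shape of statement S0328: `t : Fin (N + 1) → ℝ`,
`t 0 = α`, `t (Fin.last N) = β`, monotone, the `i`-th piece being
`[t i.castSucc, t i.succ]`.
-/

set_option autoImplicit false
open MeasureTheory Set

namespace Crest.Agent.S0328.Helper64

variable {α β : ℝ} {N : ℕ}

/-- Extension of a `Fin (N+1)`-indexed partition to a sequence indexed by `ℕ` (constant after `N`). -/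
noncomputable def seqOf (t : Fin (N + 1) → ℝ) (k : ℕ) : ℝ := t ⟨min k N, by omega⟩

theorem seqOf_castSucc (t : Fin (N + 1) → ℝ) (i : Fin N) : seqOf t (i : ℕ) = t i.castSucc := by
  unfold seqOf
  congr 1
  ext
  simp

theorem seqOf_succ (t : Fin (N + 1) → ℝ) (i : Fin N) : seqOf t ((i : ℕ) + 1) = t i.succ := by
  unfold seqOf
  congr 1
  ext
  simp

theorem seqOf_zero (t : Fin (N + 1) → ℝ) : seqOf t 0 = t 0 := by
  unfold seqOf
  congr 1

theorem seqOf_last (t : Fin (N + 1) → ℝ) : seqOf t N = t (Fin.last N) := by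
  unfold seqOf
  congr 1
  ext
  simp

/-- Every partition point lies in `[α, β]`. -/
theorem partition_mem_Icc (t : Fin (N + 1) → ℝ) (ht : Monotone t) (h0 : t 0 = α)
    (hN : t (Fin.last N) = β) (i : Fin (N + 1)) : t i ∈ Icc α β :=
  ⟨h0 ▸ ht (Fin.zero_le i), hN ▸ ht (Fin.le_last i)⟩

/-- Every piece of the partition lies in `[α, β]`. -/
theorem piece_subset (t : Fin (N + 1) → ℝ) (ht : Monotone t) (h0 : t 0 = α)
    (hN : t (Fin.last N) = β) (i : Fin N) : Icc (t i.castSucc) (t i.succ) ⊆ Icc α β :=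
  Icc_subset_Icc (partition_mem_Icc t ht h0 hN i.castSucc).1 (partition_mem_Icc t ht h0 hN i.succ).2

theorem castSucc_le_succ (t : Fin (N + 1) → ℝ) (ht : Monotone t) (i : Fin N) :
    t i.castSucc ≤ t i.succ :=
  ht (Fin.castSucc_lt_succ (i := i)).le

/-- The lengths of the pieces add up to `β - α`. -/
theorem sum_lengths (t : Fin (N + 1) → ℝ) (h0 : t 0 = α) (hN : t (Fin.last N) = β) :
    ∑ i : Fin N, (t i.succ - t i.castSucc) = β - α := by
  have h1 : ∑ i : Fin N, (t i.succ - t i.castSucc)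
      = ∑ i : Fin N, (seqOf t ((i : ℕ) + 1) - seqOf t (i : ℕ)) := by
    refine Finset.sum_congr rfl fun i _ => ?_
    rw [seqOf_succ, seqOf_castSucc]
  rw [h1, Fin.sum_univ_eq_sum_range (fun k => seqOf t (k + 1) - seqOf t k) N,
    Finset.sum_range_sub, seqOf_last, seqOf_zero, h0, hN]

/-- The integral over `[α, β]` is the sum of the integrals over the pieces. -/
theorem integral_eq_sum {F : ℝ → ℝ} (hF : ContinuousOn F (Icc α β)) (t : Fin (N + 1) → ℝ)
    (ht : Monotone t) (h0 : t 0 = α) (hN : t (Fin.last N) = β) :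
    ∫ x in α..β, F x = ∑ i : Fin N, ∫ x in (t i.castSucc)..(t i.succ), F x := by
  have h1 : ∑ i : Fin N, ∫ x in (t i.castSucc)..(t i.succ), F x
      = ∑ i : Fin N, ∫ x in (seqOf t (i : ℕ))..(seqOf t ((i : ℕ) + 1)), F x := by
    refine Finset.sum_congr rfl fun i _ => ?_
    rw [seqOf_succ, seqOf_castSucc]
  rw [h1, Fin.sum_univ_eq_sum_range (fun k => ∫ x in (seqOf t k)..(seqOf t (k + 1)), F x) N,
    intervalIntegral.sum_integral_adjacent_intervals, seqOf_last, seqOf_zero, h0, hN]
  intro k hk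
  have hk' := seqOf_castSucc t ⟨k, hk⟩
  have hk'' := seqOf_succ t ⟨k, hk⟩
  simp only at hk' hk''
  rw [hk', hk'']
  apply ContinuousOn.intervalIntegrable
  rw [uIcc_of_le (castSucc_le_succ t ht ⟨k, hk⟩)]
  exact hF.mono (piece_subset t ht h0 hN ⟨k, hk⟩)

/-- Deterministic Riemann-sum estimate: if on each piece the value `v i` is within `ε₀` of `F`,
then the Riemann sum `∑ v i * Δ i` is within `ε₀ * (β - α)` of the integral. -/
theorem abs_sum_sub_integral_le {F : ℝ → ℝ} (hF : ContinuousOn F (Icc α β))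
    (t : Fin (N + 1) → ℝ) (ht : Monotone t) (h0 : t 0 = α) (hN : t (Fin.last N) = β)
    (v : Fin N → ℝ) (ε₀ : ℝ)
    (hv : ∀ i, ∀ x ∈ Icc (t i.castSucc) (t i.succ), |v i - F x| ≤ ε₀) :
    |∑ i, v i * (t i.succ - t i.castSucc) - ∫ x in α..β, F x| ≤ ε₀ * (β - α) := by
  rw [integral_eq_sum hF t ht h0 hN, ← Finset.sum_sub_distrib]
  have hpiece : ∀ i : Fin N,
      |v i * (t i.succ - t i.castSucc) - ∫ x in (t i.castSucc)..(t i.succ), F x|
        ≤ ε₀ * (t i.succ - t i.castSucc) := by
    intro i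
    have hle := castSucc_le_succ t ht i
    have hFi : IntervalIntegrable F volume (t i.castSucc) (t i.succ) := by
      apply ContinuousOn.intervalIntegrable
      rw [uIcc_of_le hle]
      exact hF.mono (piece_subset t ht h0 hN i)
    have hc : ∫ _x in (t i.castSucc)..(t i.succ), v i = v i * (t i.succ - t i.castSucc) := by
      rw [intervalIntegral.integral_const, smul_eq_mul, mul_comm]
    rw [← hc, ← intervalIntegral.integral_sub intervalIntegrable_const hFi]
    have hb := intervalIntegral.norm_integral_le_of_norm_le_const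
      (a := t i.castSucc) (b := t i.succ) (C := ε₀) (f := fun x => v i - F x) (by
        intro x hx
        rw [uIoc_of_le hle] at hx
        rw [Real.norm_eq_abs]
        exact hv i x ⟨hx.1.le, hx.2⟩)
    rw [Real.norm_eq_abs, abs_of_nonneg (sub_nonneg.2 hle)] at hb
    exact hb
  calc |∑ i : Fin N, (v i * (t i.succ - t i.castSucc) - ∫ x in (t i.castSucc)..(t i.succ), F x)|
      ≤ ∑ i : Fin N, |v i * (t i.succ - t i.castSucc) - ∫ x in (t i.castSucc)..(t i.succ), F x| :=
        Finset.abs_sum_le_sum_abs _ _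
    _ ≤ ∑ i : Fin N, ε₀ * (t i.succ - t i.castSucc) := Finset.sum_le_sum fun i _ => hpiece i
    _ = ε₀ * (β - α) := by rw [← Finset.mul_sum, sum_lengths t h0 hN]

/-- Uniform continuity on a compact interval, in `ε`–`δ` form with non-strict inequalities. -/
theorem exists_delta {E : Type*} [PseudoMetricSpace E] {F : ℝ → E}
    (hF : ContinuousOn F (Icc α β)) {ε₀ : ℝ} (hε : 0 < ε₀) :
    ∃ δ : ℝ, 0 < δ ∧ ∀ x ∈ Icc α β, ∀ y ∈ Icc α β, |x - y| ≤ δ → dist (F x) (F y) ≤ ε₀ := by
  have huc := isCompact_Icc.uniformContinuousOn_of_continuous hF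
  rw [Metric.uniformContinuousOn_iff] at huc
  obtain ⟨δ, hδ, h⟩ := huc ε₀ hε
  refine ⟨δ / 2, by positivity, fun x hx y hy hxy => (h x hx y hy ?_).le⟩
  rw [Real.dist_eq]
  linarith

/-- Tagged Riemann sums of a continuous function converge to the integral, uniformly in the
partition, in the exact shape used by S0328. -/
theorem riemann_tagged {F : ℝ → ℝ} (hF : ContinuousOn F (Icc α β)) (hαβ : α ≤ β) {η : ℝ}
    (hη : 0 < η) :
    ∃ δ : ℝ, 0 < δ ∧ ∀ (N : ℕ) (t : Fin (N + 1) → ℝ) (c : Fin N → ℝ),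
      Monotone t → t 0 = α → t (Fin.last N) = β →
      (∀ i : Fin N, t i.succ - t i.castSucc ≤ δ) →
      (∀ i : Fin N, t i.castSucc ≤ c i ∧ c i ≤ t i.succ) →
      |∑ i, F (c i) * (t i.succ - t i.castSucc) - ∫ x in α..β, F x| ≤ η := by
  obtain ⟨δ, hδ, h⟩ := exists_delta hF (ε₀ := η / (β - α + 1)) (by positivity)
  refine ⟨δ, hδ, fun N t c ht h0 hN hmesh hc => ?_⟩
  have key := abs_sum_sub_integral_le hF t ht h0 hN (fun i => F (c i)) (η / (β - α + 1)) (by
    intro i x hx
    have hsub := piece_subset t ht h0 hN i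
    have hci : c i ∈ Icc (t i.castSucc) (t i.succ) := ⟨(hc i).1, (hc i).2⟩
    have := h (c i) (hsub hci) x (hsub hx) (by
      rw [abs_le]
      constructor <;> linarith [hmesh i, hx.1, hx.2, hci.1, hci.2])
    rwa [Real.dist_eq] at this)
  refine key.trans ?_
  rw [div_mul_eq_mul_div, div_le_iff₀ (by linarith)]
  nlinarith

end Crest.Agent.S0328.Helper64
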