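import Mathlib
import Crest.Agent.Lib.S0324.Helper62Area
import Crest.Agent.Lib.S0328.Helper62Gram
import Crest.Agent.Lib.S0328.Helper62Calc
import Crest.Agent.Lib.S0328.Helper62Piece
import Crest.Agent.Lib.S0328.Helper64Riemann

/-!
# S0328: radial sweep, thin triangles, Riemann sums (helper62, row 211)

`Crest.Agent.S0328.Helper62.main` is the exact statement of `Crest/Templates/S0328.lean.txt`.

Proof outline. For a piece `[σ₀, σ₁]` of the partition with tag `c`, axis `u = e + w c` and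
`Δ = σ₁ - σ₀`, FTC gives `w τ - w c = A a + B b` with `|A| ≤ ΛΔ`, `|B - σ₀ A|, |B - σ₁ A| ≤ ΛΔ²`, so every
point of the piece is `p₀ + X a + Y b + s u` with `(X, Y)` in the triangle bounded by `Y = σ₀ X - Δν`,
`Y = σ₁ X + Δν`, `X = R c + ω + LΛΔ` (`ν = (LΛ + 1)Δ`, `ω` an oscillation bound for `R`). Its projection
along `u` has area `κ Δ W² / (2 √(1 + ‖w c‖²))`, `W = R c + ω + (3LΛ + 2)Δ` (`gram_proj_tri`). The inner
triangle `0, r(a + σ₀ b), r(a + σ₁ b)`, `r = max (R c - ω) 0`, bounds the projected piece from below.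
Both are Riemann sums of `R² / (2 √(1 + ‖w‖²))` up to a uniformly small error (`estimates`, and
`Helper64.abs_sum_sub_integral_le`).
-/

set_option autoImplicit false
open MeasureTheory Set
open scoped ENNReal

namespace Crest.Agent.S0328.Helper62

open Crest.Agent.S0324.Helper62 (E2 E3 gram gram_nonneg stdTri convexHull_triple_eq_image
  triangle_area triangle_area_toReal)

theorem continuousOn_F {α β : ℝ} {R : ℝ → ℝ} (hR : ContinuousOn R (Icc α β))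
    {w : ℝ → E3} (hwc : ContinuousOn w (Icc α β)) :
    ContinuousOn (fun τ => R τ ^ 2 / (2 * Real.sqrt (1 + ‖w τ‖ ^ 2))) (Icc α β) := by
  apply ContinuousOn.div (hR.pow 2)
  · exact continuousOn_const.mul (Real.continuous_sqrt.comp_continuousOn
      (continuousOn_const.add (hwc.norm.pow 2)))
  · intro x _
    have : 0 < Real.sqrt (1 + ‖w x‖ ^ 2) := Real.sqrt_pos.mpr (by positivity)
    positivity

theorem two_le_den (v : E3) : 2 ≤ 2 * Real.sqrt (1 + ‖v‖ ^ 2) := by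
  have : 1 ≤ Real.sqrt (1 + ‖v‖ ^ 2) := by
    rw [Real.one_le_sqrt]; nlinarith [sq_nonneg ‖v‖]
  linarith

/-- uniform estimates used for the Riemann sums -/
theorem estimates {α β : ℝ} {R : ℝ → ℝ} (hR : ContinuousOn R (Icc α β))
    (hR0 : ∀ t ∈ Icc α β, 0 ≤ R t) {w : ℝ → E3} (hwc : ContinuousOn w (Icc α β))
    (C : ℝ) (hC : 0 < C) {ε₀ : ℝ} (hε : 0 < ε₀) :
    ∃ δ : ℝ, 0 < δ ∧ ∃ ω : ℝ, 0 ≤ ω ∧ ∀ c ∈ Icc α β, ∀ x ∈ Icc α β, |x - c| ≤ δ →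
      R x ≤ R c + ω ∧ max (R c - ω) 0 ≤ R x ∧
      (∀ Δ : ℝ, 0 ≤ Δ → Δ ≤ δ →
        |(R c + ω + C * Δ) ^ 2 / (2 * Real.sqrt (1 + ‖w c‖ ^ 2))
          - R x ^ 2 / (2 * Real.sqrt (1 + ‖w x‖ ^ 2))| ≤ ε₀) ∧
      |(max (R c - ω) 0) ^ 2 / (2 * Real.sqrt (1 + ‖w c‖ ^ 2))
          - R x ^ 2 / (2 * Real.sqrt (1 + ‖w x‖ ^ 2))| ≤ ε₀ := by
  have hF := continuousOn_F hR hwc
  obtain ⟨M, hM⟩ := isCompact_Icc.exists_bound_of_continuousOn hR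
  have hM' : ∀ t ∈ Icc α β, R t ≤ M := fun t ht => (Real.le_norm_self _).trans (hM t ht)
  set θ : ℝ := min 1 (ε₀ / (2 * |M| + 1)) with hθ
  have hθpos : 0 < θ := lt_min one_pos (by positivity)
  have hθ1 : θ ≤ 1 := min_le_left _ _
  have hθ2 : θ * (2 * |M| + 1) ≤ ε₀ := by
    have := min_le_right (1 : ℝ) (ε₀ / (2 * |M| + 1))
    rw [← hθ, le_div_iff₀ (by positivity)] at this
    exact this
  obtain ⟨δF, hδF, hFu⟩ := Helper64.exists_delta hF (ε₀ := ε₀ / 2) (by positivity)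
  obtain ⟨δR, hδR, hRu⟩ := Helper64.exists_delta hR (ε₀ := θ / 2) (by positivity)
  refine ⟨min (θ / (2 * C)) (min δF δR), lt_min (by positivity) (lt_min hδF hδR), θ / 2,
    by positivity, ?_⟩
  intro c hc x hx hxc
  have hxcF : |x - c| ≤ δF := hxc.trans ((min_le_right _ _).trans (min_le_left _ _))
  have hxcR : |x - c| ≤ δR := hxc.trans ((min_le_right _ _).trans (min_le_right _ _))
  have hRxc := hRu x hx c hc hxcR
  rw [Real.dist_eq, abs_le] at hRxc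
  have hFxc := hFu c hc x hx (by rw [abs_sub_comm]; exact hxcF)
  rw [Real.dist_eq] at hFxc
  have hRc0 := hR0 c hc
  have hRx0 := hR0 x hx
  have hRcM : R c ≤ |M| := (hM' c hc).trans (le_abs_self M)
  have hden := two_le_den (w c)
  have hdenpos : 0 < 2 * Real.sqrt (1 + ‖w c‖ ^ 2) := by linarith
  refine ⟨by linarith [hRxc.1], ?_, ?_, ?_⟩
  · exact max_le (by linarith [hRxc.2]) hRx0
  · intro Δ hΔ0 hΔ
    have hΔ' : C * Δ ≤ θ / 2 := by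
      have : Δ ≤ θ / (2 * C) := hΔ.trans (min_le_left _ _)
      rw [le_div_iff₀ (by positivity)] at this
      linarith
    have hCΔ : 0 ≤ C * Δ := mul_nonneg hC.le hΔ0
    have h1 : (R c + θ / 2 + C * Δ) ^ 2 / (2 * Real.sqrt (1 + ‖w c‖ ^ 2))
        - R c ^ 2 / (2 * Real.sqrt (1 + ‖w c‖ ^ 2))
        = ((θ / 2 + C * Δ) * (2 * R c + (θ / 2 + C * Δ))) / (2 * Real.sqrt (1 + ‖w c‖ ^ 2)) := by
      rw [← sub_div]; congr 1; ring
    have h2 : 0 ≤ (θ / 2 + C * Δ) * (2 * R c + (θ / 2 + C * Δ)) := by positivity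
    have h3 : (θ / 2 + C * Δ) * (2 * R c + (θ / 2 + C * Δ)) ≤ ε₀ := by
      have : (θ / 2 + C * Δ) * (2 * R c + (θ / 2 + C * Δ)) ≤ θ * (2 * |M| + 1) := by
        apply mul_le_mul <;> linarith
      linarith
    have h4 : 0 ≤ ((θ / 2 + C * Δ) * (2 * R c + (θ / 2 + C * Δ)))
        / (2 * Real.sqrt (1 + ‖w c‖ ^ 2)) := div_nonneg h2 hdenpos.le
    have h5 : ((θ / 2 + C * Δ) * (2 * R c + (θ / 2 + C * Δ)))
        / (2 * Real.sqrt (1 + ‖w c‖ ^ 2)) ≤ ε₀ / 2 := by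
      rw [div_le_iff₀ hdenpos]
      nlinarith
    rw [abs_le] at hFxc ⊢
    constructor <;> linarith [hFxc.1, hFxc.2]
  · have hm0 : 0 ≤ max (R c - θ / 2) 0 := le_max_right _ _
    have hm1 : max (R c - θ / 2) 0 ≤ R c := max_le (by linarith) hRc0
    have hm2 : R c - θ / 2 ≤ max (R c - θ / 2) 0 := le_max_left _ _
    have h1 : R c ^ 2 / (2 * Real.sqrt (1 + ‖w c‖ ^ 2))
        - (max (R c - θ / 2) 0) ^ 2 / (2 * Real.sqrt (1 + ‖w c‖ ^ 2))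
        = ((R c - max (R c - θ / 2) 0) * (R c + max (R c - θ / 2) 0))
          / (2 * Real.sqrt (1 + ‖w c‖ ^ 2)) := by
      rw [← sub_div]; congr 1; ring
    have h2 : 0 ≤ (R c - max (R c - θ / 2) 0) * (R c + max (R c - θ / 2) 0) :=
      mul_nonneg (by linarith) (by linarith)
    have h3 : (R c - max (R c - θ / 2) 0) * (R c + max (R c - θ / 2) 0) ≤ ε₀ := by
      have : (R c - max (R c - θ / 2) 0) * (R c + max (R c - θ / 2) 0) ≤ (θ / 2) * (2 * |M|) := by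
        apply mul_le_mul <;> linarith
      nlinarith [abs_nonneg M]
    have h4 : 0 ≤ ((R c - max (R c - θ / 2) 0) * (R c + max (R c - θ / 2) 0))
        / (2 * Real.sqrt (1 + ‖w c‖ ^ 2)) := div_nonneg h2 hdenpos.le
    have h5 : ((R c - max (R c - θ / 2) 0) * (R c + max (R c - θ / 2) 0))
        / (2 * Real.sqrt (1 + ‖w c‖ ^ 2)) ≤ ε₀ / 2 := by
      rw [div_le_iff₀ hdenpos]
      nlinarith
    rw [abs_le] at hFxc ⊢
    constructor <;> linarith [hFxc.1, hFxc.2]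

/-- discrete intermediate value: every point between the ends lies in some piece -/
theorem exists_piece : ∀ (N : ℕ) (t : Fin (N + 2) → ℝ) (τ : ℝ), t 0 ≤ τ →
    τ ≤ t (Fin.last (N + 1)) → ∃ i : Fin (N + 1), t i.castSucc ≤ τ ∧ τ ≤ t i.succ := by
  intro N
  induction N with
  | zero =>
    intro t τ h0 h1
    exact ⟨0, by simpa using h0, by simpa using h1⟩
  | succ n ih =>
    intro t τ h0 h1
    by_cases h : τ ≤ t (Fin.last (n + 1)).castSucc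
    · obtain ⟨i, hi0, hi1⟩ := ih (fun j => t j.castSucc) τ (by simpa using h0) h
      exact ⟨i.castSucc, hi0, by rw [Fin.succ_castSucc]; exact hi1⟩
    · exact ⟨Fin.last (n + 1), (not_le.mp h).le, by rw [Fin.succ_last]; exact h1⟩

theorem exists_piece' {N : ℕ} (t : Fin (N + 1) → ℝ) {τ : ℝ} (hlt : t 0 < t (Fin.last N))
    (h0 : t 0 ≤ τ) (h1 : τ ≤ t (Fin.last N)) : ∃ i : Fin N, t i.castSucc ≤ τ ∧ τ ≤ t i.succ := by
  cases N with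
  | zero => exact absurd hlt (by simp)
  | succ n => exact exists_piece n t τ h0 h1

/-- everything about one piece of the partition -/
theorem piece_data (e a b p₀ : E3) (he : ‖e‖ = 1) (ha : inner ℝ a e = 0) (hb : inner ℝ b e = 0)
    (hab : LinearIndependent ℝ ![a, b]) {L : ℝ} (hL : 0 < L) {α β : ℝ}
    {R : ℝ → ℝ} (hR0 : ∀ t ∈ Icc α β, 0 ≤ R t)
    {w : ℝ → E3} (hw : ∀ t ∈ Icc α β, inner ℝ (w t) e = 0)
    {lam : ℝ → ℝ} (hlam : ContinuousOn lam (Icc α β))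
    (hw' : ∀ t ∈ Icc α β, HasDerivWithinAt w (lam t • (a + t • b)) (Icc α β) t)
    {Λ : ℝ} (hΛ : ∀ t ∈ Icc α β, |lam t| ≤ Λ)
    {δ ω ε₀ : ℝ} (hω : 0 ≤ ω)
    (hest : ∀ c ∈ Icc α β, ∀ x ∈ Icc α β, |x - c| ≤ δ →
      R x ≤ R c + ω ∧ max (R c - ω) 0 ≤ R x ∧
      (∀ Δ : ℝ, 0 ≤ Δ → Δ ≤ δ →
        |(R c + ω + (3 * L * Λ + 2) * Δ) ^ 2 / (2 * Real.sqrt (1 + ‖w c‖ ^ 2))
          - R x ^ 2 / (2 * Real.sqrt (1 + ‖w x‖ ^ 2))| ≤ ε₀) ∧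
      |(max (R c - ω) 0) ^ 2 / (2 * Real.sqrt (1 + ‖w c‖ ^ 2))
          - R x ^ 2 / (2 * Real.sqrt (1 + ‖w x‖ ^ 2))| ≤ ε₀)
    {σ0 σ1 c : ℝ} (h0 : α ≤ σ0) (h01 : σ0 < σ1) (h1 : σ1 ≤ β) (hmesh : σ1 - σ0 ≤ δ)
    (hc : c ∈ Icc σ0 σ1) :
    ∃ (p q r : E3) (v v' : ℝ),
      (inner ℝ p (e + w c) = 0 ∧ inner ℝ q (e + w c) = 0 ∧ inner ℝ r (e + w c) = 0) ∧
      AffineIndependent ℝ ![p, q, r] ∧
      (∀ τ ∈ Icc σ0 σ1, ∀ ρ ∈ Icc 0 (R τ), ∀ s : ℝ, |s| ≤ L →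
        ∃ y ∈ convexHull ℝ ({p, q, r} : Set E3), ∃ σ : ℝ,
          p₀ + ρ • (a + τ • b) + s • (e + w τ) = y + σ • (e + w c)) ∧
      ((μHE[2] : Measure E3) (convexHull ℝ {p, q, r})).toReal
        = Real.sqrt (gram a b) * (v * (σ1 - σ0)) ∧
      Real.sqrt (gram a b) * (v' * (σ1 - σ0)) ≤
        ((μHE[2] : Measure E3) (proj (e + w c) '' {x : E3 | ∃ τ ∈ Icc σ0 σ1, ∃ ρ ∈ Icc 0 (R τ),
          ∃ s : ℝ, |s| ≤ L ∧ x = p₀ + ρ • (a + τ • b) + s • (e + w τ)})).toReal ∧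
      ((μHE[2] : Measure E3) (proj (e + w c) '' {x : E3 | ∃ τ ∈ Icc σ0 σ1, ∃ ρ ∈ Icc 0 (R τ),
          ∃ s : ℝ, |s| ≤ L ∧ x = p₀ + ρ • (a + τ • b) + s • (e + w τ)})).toReal
        ≤ Real.sqrt (gram a b) * (v * (σ1 - σ0)) ∧
      (∀ x ∈ Icc σ0 σ1, |v - R x ^ 2 / (2 * Real.sqrt (1 + ‖w x‖ ^ 2))| ≤ ε₀) ∧
      (∀ x ∈ Icc σ0 σ1, |v' - R x ^ 2 / (2 * Real.sqrt (1 + ‖w x‖ ^ 2))| ≤ ε₀) := by
  have hsub : Icc σ0 σ1 ⊆ Icc α β := Icc_subset_Icc h0 h1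
  have hcI := hsub hc
  have hΔ : 0 < σ1 - σ0 := sub_pos.mpr h01
  have hΛ0 : 0 ≤ Λ := le_trans (abs_nonneg _) (hΛ c hcI)
  have hwc := hw c hcI
  have hu : e + w c ≠ 0 := add_perp_ne_zero e (w c) he hwc
  have hxc : ∀ x ∈ Icc σ0 σ1, |x - c| ≤ δ := fun x hx => by
    refine le_trans ?_ hmesh
    rw [abs_le]; constructor <;> linarith [hx.1, hx.2, hc.1, hc.2]
  have hRc0 := hR0 c hcI
  have hRbar0 : 0 ≤ R c + ω := add_nonneg hRc0 hω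
  obtain ⟨ν, hν⟩ : ∃ ν : ℝ, ν = (L * Λ + 1) * (σ1 - σ0) := ⟨_, rfl⟩
  obtain ⟨Ab, hAb⟩ : ∃ Ab : ℝ, Ab = R c + ω + L * Λ * (σ1 - σ0) := ⟨_, rfl⟩
  obtain ⟨W, hW⟩ : ∃ W : ℝ, W = R c + ω + (3 * L * Λ + 2) * (σ1 - σ0) := ⟨_, rfl⟩
  have hWeq : Ab + 2 * ν = W := by rw [hAb, hν, hW]; ring
  have hWpos : 0 < W := by
    rw [hW]
    have : 0 < (3 * L * Λ + 2) * (σ1 - σ0) := by positivity
    linarith
  obtain ⟨rl, hrl⟩ : ∃ rl : ℝ, rl = max (R c - ω) 0 := ⟨_, rfl⟩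
  have hrl0 : 0 ≤ rl := by rw [hrl]; exact le_max_right _ _
  have hgpos := gram_pos_of_linearIndependent a b hab
  have hgram : gram (proj (e + w c) (V2 p₀ a b σ0 σ1 ν Ab) - proj (e + w c) (V1 p₀ a b σ0 σ1 ν Ab))
      (proj (e + w c) (V3 p₀ a b σ0 σ1 ν Ab) - proj (e + w c) (V1 p₀ a b σ0 σ1 ν Ab))
      = ((σ1 - σ0) * W ^ 2) ^ 2 * (gram a b / (1 + ‖w c‖ ^ 2)) := by
    rw [gram_thin e a b (w c) p₀ he ha hb hwc, hWeq]
  have hmem : ∀ τ ∈ Icc σ0 σ1, ∀ ρ ∈ Icc 0 (R τ), ∀ s : ℝ, |s| ≤ L →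
      proj (e + w c) (p₀ + ρ • (a + τ • b) + s • (e + w τ)) ∈ convexHull ℝ
        {proj (e + w c) (V1 p₀ a b σ0 σ1 ν Ab), proj (e + w c) (V2 p₀ a b σ0 σ1 ν Ab),
          proj (e + w c) (V3 p₀ a b σ0 σ1 ν Ab)} := by
    intro τ hτ ρ hρ s hs
    have hρ' : ρ ∈ Icc 0 (R c + ω) :=
      ⟨hρ.1, hρ.2.trans (hest c hcI τ (hsub hτ) (hxc τ hτ)).1⟩
    have hm := piece_mem e a b p₀ hlam hw' hΛ hL h0 h01 h1 hc hu hRbar0 hτ hρ' hs
    rw [hν, hAb]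
    exact hm
  have harea : ((μHE[2] : Measure E3) (convexHull ℝ
      {proj (e + w c) (V1 p₀ a b σ0 σ1 ν Ab), proj (e + w c) (V2 p₀ a b σ0 σ1 ν Ab),
          proj (e + w c) (V3 p₀ a b σ0 σ1 ν Ab)})).toReal
      = Real.sqrt (gram a b) * (W ^ 2 / (2 * Real.sqrt (1 + ‖w c‖ ^ 2)) * (σ1 - σ0)) := by
    rw [area_of_gram _ _ _ a b ((σ1 - σ0) * W ^ 2) ‖w c‖ (by positivity) hgram]
    ring
  have hsubset : proj (e + w c) '' {x : E3 | ∃ τ ∈ Icc σ0 σ1, ∃ ρ ∈ Icc 0 (R τ),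
          ∃ s : ℝ, |s| ≤ L ∧ x = p₀ + ρ • (a + τ • b) + s • (e + w τ)} ⊆ convexHull ℝ
      {proj (e + w c) (V1 p₀ a b σ0 σ1 ν Ab), proj (e + w c) (V2 p₀ a b σ0 σ1 ν Ab),
          proj (e + w c) (V3 p₀ a b σ0 σ1 ν Ab)} := by
    rintro _ ⟨x, ⟨τ, hτ, ρ, hρ, s, hs, rfl⟩, rfl⟩
    exact hmem τ hτ ρ hρ s hs
  have hfin : (μHE[2] : Measure E3) (convexHull ℝ
      {proj (e + w c) (V1 p₀ a b σ0 σ1 ν Ab), proj (e + w c) (V2 p₀ a b σ0 σ1 ν Ab),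
          proj (e + w c) (V3 p₀ a b σ0 σ1 ν Ab)}) ≠ ⊤ := by
    rw [triangle_area]; exact ENNReal.ofReal_ne_top
  have hfinS := ne_top_of_le_ne_top hfin (measure_mono hsubset)
  refine ⟨proj (e + w c) (V1 p₀ a b σ0 σ1 ν Ab), proj (e + w c) (V2 p₀ a b σ0 σ1 ν Ab),
    proj (e + w c) (V3 p₀ a b σ0 σ1 ν Ab), W ^ 2 / (2 * Real.sqrt (1 + ‖w c‖ ^ 2)),
    rl ^ 2 / (2 * Real.sqrt (1 + ‖w c‖ ^ 2)), ?_, ?_, ?_, harea, ?_, ?_, ?_, ?_⟩
  · exact ⟨inner_proj _ hu _, inner_proj _ hu _, inner_proj _ hu _⟩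
  · apply affineIndependent_of_gram_pos
    rw [hgram]
    positivity
  · intro τ hτ ρ hρ s hs
    exact ⟨_, hmem τ hτ ρ hρ s hs, _, eq_proj_add (e + w c) _⟩
  · have hin : convexHull ℝ {proj (e + w c) (I1 p₀ a b), proj (e + w c) (I2 p₀ a b σ0 rl),
        proj (e + w c) (I3 p₀ a b σ1 rl)} ⊆ proj (e + w c) '' {x : E3 | ∃ τ ∈ Icc σ0 σ1,
          ∃ ρ ∈ Icc 0 (R τ), ∃ s : ℝ, |s| ≤ L ∧ x = p₀ + ρ • (a + τ • b) + s • (e + w τ)} := by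
      refine (inner_tri_subset (e + w c) p₀ a b σ0 σ1 rl h01.le hrl0).trans
        (Set.image_mono ?_)
      rintro x ⟨τ, hτ, ρ, hρ, rfl⟩
      refine ⟨τ, hτ, ρ, ⟨hρ.1, hρ.2.trans ?_⟩, 0, by simpa using hL.le, by simp⟩
      rw [hrl]
      exact (hest c hcI τ (hsub hτ) (hxc τ hτ)).2.1
    have h := ENNReal.toReal_mono hfinS (measure_mono hin)
    rw [area_of_gram _ _ _ a b ((σ1 - σ0) * rl ^ 2) ‖w c‖ (by positivity)
      (gram_inner e a b (w c) p₀ he ha hb hwc σ0 σ1 rl)] at h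
    calc Real.sqrt (gram a b) * (rl ^ 2 / (2 * Real.sqrt (1 + ‖w c‖ ^ 2)) * (σ1 - σ0))
        = Real.sqrt (gram a b) * ((σ1 - σ0) * rl ^ 2 / (2 * Real.sqrt (1 + ‖w c‖ ^ 2))) := by ring
      _ ≤ _ := h
  · have h := ENNReal.toReal_mono hfin (measure_mono hsubset)
    rw [harea] at h
    exact h
  · intro x hx
    rw [hW]
    exact (hest c hcI x (hsub hx) (hxc x hx)).2.2.1 (σ1 - σ0) hΔ.le hmesh
  · intro x hx
    rw [hrl]
    exact (hest c hcI x (hsub hx) (hxc x hx)).2.2.2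

/-- **S0328** (exact statement of the template). -/
theorem main
    (e a b p₀ : EuclideanSpace ℝ (Fin 3)) (he : ‖e‖ = 1)
    (ha : inner ℝ a e = 0) (hb : inner ℝ b e = 0) (_hp₀ : inner ℝ p₀ e = 0)
    (hab : LinearIndependent ℝ ![a, b]) (L : ℝ) (hL : 0 < L) (α β : ℝ) (hαβ : α < β)
    (R : ℝ → ℝ) (hR : ContinuousOn R (Set.Icc α β)) (hR0 : ∀ t ∈ Set.Icc α β, 0 ≤ R t)
    (w : ℝ → EuclideanSpace ℝ (Fin 3)) (hw : ∀ t ∈ Set.Icc α β, inner ℝ (w t) e = 0)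
    (lam : ℝ → ℝ) (hlam : ContinuousOn lam (Set.Icc α β))
    (hw' : ∀ t ∈ Set.Icc α β, HasDerivWithinAt w (lam t • (a + t • b)) (Set.Icc α β) t)
    (η : ℝ) (hη : 0 < η) :
    ∃ δ : ℝ, 0 < δ ∧ ∀ (N : ℕ) (t : Fin (N + 1) → ℝ) (c : Fin N → ℝ),
      StrictMono t → t 0 = α → t (Fin.last N) = β →
      (∀ i : Fin N, t i.succ - t i.castSucc ≤ δ) →
      (∀ i : Fin N, t i.castSucc ≤ c i ∧ c i ≤ t i.succ) →
      (∃ (p q r : Fin N → EuclideanSpace ℝ (Fin 3)),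
        (∀ i, inner ℝ (p i) (e + w (c i)) = 0 ∧ inner ℝ (q i) (e + w (c i)) = 0 ∧
          inner ℝ (r i) (e + w (c i)) = 0) ∧
        (∀ i, AffineIndependent ℝ ![p i, q i, r i]) ∧
        {x : EuclideanSpace ℝ (Fin 3) | ∃ τ ∈ Set.Icc α β, ∃ ρ ∈ Set.Icc 0 (R τ), ∃ s : ℝ, abs s ≤ L ∧
            x = p₀ + ρ • (a + τ • b) + s • (e + w τ)} ⊆
          ⋃ i, {x : EuclideanSpace ℝ (Fin 3) | ∃ y ∈ convexHull ℝ {p i, q i, r i}, ∃ σ : ℝ,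
            x = y + σ • (e + w (c i))} ∧
        abs ((∑ i, (μHE[2] (convexHull ℝ ({p i, q i, r i} : Set (EuclideanSpace ℝ (Fin 3))))).toReal) -
            Real.sqrt (‖a‖ ^ 2 * ‖b‖ ^ 2 - inner ℝ a b ^ 2) *
              ∫ τ in α..β, R τ ^ 2 / (2 * Real.sqrt (1 + ‖w τ‖ ^ 2))) ≤ η) ∧
      abs ((∑ i : Fin N, (μHE[2] ((fun y => y - (inner ℝ y (e + w (c i)) / ‖e + w (c i)‖ ^ 2) • (e + w (c i))) ''
            {x : EuclideanSpace ℝ (Fin 3) | ∃ τ ∈ Set.Icc (t i.castSucc) (t i.succ), ∃ ρ ∈ Set.Icc 0 (R τ),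
              ∃ s : ℝ, abs s ≤ L ∧ x = p₀ + ρ • (a + τ • b) + s • (e + w τ)})).toReal) -
          Real.sqrt (‖a‖ ^ 2 * ‖b‖ ^ 2 - inner ℝ a b ^ 2) *
            ∫ τ in α..β, R τ ^ 2 / (2 * Real.sqrt (1 + ‖w τ‖ ^ 2))) ≤ η := by
  have hwc : ContinuousOn w (Icc α β) := continuousOn_of_hasDerivWithinAt hw'
  have hF := continuousOn_F hR hwc
  obtain ⟨Λ, hΛn⟩ := isCompact_Icc.exists_bound_of_continuousOn hlam
  have hΛ : ∀ t ∈ Icc α β, |lam t| ≤ Λ := fun t ht => by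
    have := hΛn t ht
    rwa [Real.norm_eq_abs] at this
  have hΛ0 : 0 ≤ Λ := le_trans (abs_nonneg _) (hΛ α ⟨le_rfl, hαβ.le⟩)
  have hκ0 : 0 ≤ Real.sqrt (gram a b) := Real.sqrt_nonneg _
  have hκ : Real.sqrt (‖a‖ ^ 2 * ‖b‖ ^ 2 - inner ℝ a b ^ 2) = Real.sqrt (gram a b) := rfl
  have hβα : 0 < β - α := sub_pos.mpr hαβ
  obtain ⟨ε₀, hε₀, hε₀η⟩ : ∃ ε₀ : ℝ, 0 < ε₀ ∧ Real.sqrt (gram a b) * (ε₀ * (β - α)) ≤ η := by
    have h1 : 0 < (Real.sqrt (gram a b) + 1) * (β - α) := by positivity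
    refine ⟨η / ((Real.sqrt (gram a b) + 1) * (β - α)), by positivity, ?_⟩
    have h2 : Real.sqrt (gram a b) * (η / ((Real.sqrt (gram a b) + 1) * (β - α)) * (β - α))
        = η * (Real.sqrt (gram a b) / (Real.sqrt (gram a b) + 1)) := by
      field_simp
    rw [h2]
    have h3 : Real.sqrt (gram a b) / (Real.sqrt (gram a b) + 1) ≤ 1 := by
      rw [div_le_one (by positivity)]; linarith
    nlinarith
  obtain ⟨δ, hδ, ω, hω, hest⟩ := estimates hR hR0 hwc (3 * L * Λ + 2) (by positivity) hε₀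
  refine ⟨δ, hδ, ?_⟩
  intro N t c ht h0 hN hmesh hc
  have htm : Monotone t := ht.monotone
  have hsub := Helper64.piece_subset t htm h0 hN
  have hle := Helper64.castSucc_le_succ t htm
  have hdata := fun i : Fin N =>
    piece_data e a b p₀ he ha hb hab hL hR0 hw hlam hw' hΛ hω hest
      (hsub i ⟨le_rfl, hle i⟩).1 (ht Fin.castSucc_lt_succ) (hsub i ⟨hle i, le_rfl⟩).2 (hmesh i)
      ⟨(hc i).1, (hc i).2⟩
  choose p q r v v' hperp haff hcov harea hlow hup hv hv' using hdata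
  have hsumv := Helper64.abs_sum_sub_integral_le hF t htm h0 hN v ε₀ hv
  have hsumv' := Helper64.abs_sum_sub_integral_le hF t htm h0 hN v' ε₀ hv'
  have key : ∀ v : Fin N → ℝ,
      |∑ i, v i * (t i.succ - t i.castSucc) - ∫ x in α..β, R x ^ 2 / (2 * Real.sqrt (1 + ‖w x‖ ^ 2))|
        ≤ ε₀ * (β - α) →
      |∑ i, Real.sqrt (gram a b) * (v i * (t i.succ - t i.castSucc))
        - Real.sqrt (gram a b) * ∫ x in α..β, R x ^ 2 / (2 * Real.sqrt (1 + ‖w x‖ ^ 2))| ≤ η := by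
    intro v h
    rw [← Finset.mul_sum, ← mul_sub, abs_mul, abs_of_nonneg hκ0]
    exact (mul_le_mul_of_nonneg_left h hκ0).trans hε₀η
  have key1 := key v hsumv
  have key2 := key v' hsumv'
  have hproj : ∀ u : E3, (fun y : E3 => y - (inner ℝ y u / ‖u‖ ^ 2) • u) = proj u := fun u => rfl
  rw [hκ]
  refine ⟨⟨p, q, r, hperp, haff, ?_, ?_⟩, ?_⟩
  · rintro x ⟨τ, hτ, ρ, hρ, s, hs, rfl⟩
    obtain ⟨i, hi0, hi1⟩ := exists_piece' t (τ := τ) (by rw [h0, hN]; exact hαβ)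
      (by rw [h0]; exact hτ.1) (by rw [hN]; exact hτ.2)
    rw [Set.mem_iUnion]
    exact ⟨i, hcov i τ ⟨hi0, hi1⟩ ρ hρ s hs⟩
  · rw [Finset.sum_congr rfl (fun i _ => harea i)]
    exact key1
  · simp only [hproj]
    rw [abs_le] at key1 key2 ⊢
    have hs1 := Finset.sum_le_sum (fun i (_ : i ∈ Finset.univ) => hup i)
    have hs2 := Finset.sum_le_sum (fun i (_ : i ∈ Finset.univ) => hlow i)
    constructor <;> linarith [key1.1, key1.2, key2.1, key2.2]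

end Crest.Agent.S0328.Helper62
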