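import Mathlib

/-!
# S0328, helper63: vector-geometry lemmas (Gram determinants, projection along a vector,
coordinates in `e^⊥`, triangles).
-/

set_option autoImplicit false
open MeasureTheory
open scoped ENNReal

namespace Crest.Agent.S0328.Helper63

/-- `EuclideanSpace ℝ (Fin 3)`. -/
abbrev E3 := EuclideanSpace ℝ (Fin 3)

section general
variable {V : Type*} [NormedAddCommGroup V] [InnerProductSpace ℝ V]

/-- Gram determinant of two vectors. -/
noncomputable def gram (x y : V) : ℝ := ‖x‖ ^ 2 * ‖y‖ ^ 2 - inner ℝ x y ^ 2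

lemma gram_nonneg (x y : V) : 0 ≤ gram x y := by
  unfold gram
  have h := real_inner_mul_inner_self_le x y
  rw [real_inner_self_eq_norm_sq, real_inner_self_eq_norm_sq] at h
  nlinarith

lemma gram_lin (a b : V) (x1 y1 x2 y2 : ℝ) :
    gram (x1 • a + y1 • b) (x2 • a + y2 • b) = (x1 * y2 - x2 * y1) ^ 2 * gram a b := by
  unfold gram
  simp only [← real_inner_self_eq_norm_sq, inner_add_left, inner_add_right, real_inner_smul_left,
    real_inner_smul_right, real_inner_comm a b]
  ring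

lemma gram_pos_of_linearIndependent {a b : V} (hab : LinearIndependent ℝ ![a, b]) :
    0 < gram a b := by
  by_contra hneg
  have hneg' : gram a b ≤ 0 := not_lt.mp hneg
  have h0 : gram a b = 0 := le_antisymm hneg' (gram_nonneg a b)
  have hd : ‖(-(inner ℝ a b)) • a + (‖a‖ ^ 2) • b‖ ^ 2 = ‖a‖ ^ 2 * gram a b := by
    unfold gram
    rw [← real_inner_self_eq_norm_sq ((-(inner ℝ a b)) • a + (‖a‖ ^ 2) • b)]
    simp only [inner_add_left, inner_add_right, real_inner_smul_left, real_inner_smul_right]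
    rw [real_inner_self_eq_norm_sq, real_inner_self_eq_norm_sq, real_inner_comm a b]
    ring
  rw [h0, mul_zero] at hd
  have hd0 : (-(inner ℝ a b)) • a + (‖a‖ ^ 2) • b = 0 := by
    have := pow_eq_zero_iff (two_ne_zero) |>.mp hd
    exact norm_eq_zero.mp this
  have h2 := (LinearIndependent.pair_iff.mp hab) _ _ hd0
  have ha0 : a = 0 := by
    have := h2.2
    exact norm_eq_zero.mp (pow_eq_zero_iff (two_ne_zero) |>.mp this)
  have := hab.ne_zero 0
  simp [ha0] at this

/-- Projection along `u` (the orthogonal projection onto `u^⊥` when `u ≠ 0`), as a linear map. -/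
noncomputable def proj (u : V) : V →ₗ[ℝ] V where
  toFun y := y - (inner ℝ y u / ‖u‖ ^ 2) • u
  map_add' x y := by
    simp only [inner_add_left, add_div, add_smul]
    abel
  map_smul' r x := by
    simp only [real_inner_smul_left, RingHom.id_apply, smul_sub, smul_smul, mul_div_assoc]

lemma proj_apply (u y : V) : proj u y = y - (inner ℝ y u / ‖u‖ ^ 2) • u := rfl

lemma proj_coe (u : V) : (proj u : V → V) = fun y => y - (inner ℝ y u / ‖u‖ ^ 2) • u := rfl

lemma proj_self {u : V} (hu : u ≠ 0) : proj u u = 0 := by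
  have hn : ‖u‖ ^ 2 ≠ 0 := by positivity
  rw [proj_apply, real_inner_self_eq_norm_sq, div_self hn, one_smul, sub_self]

lemma inner_proj_self {u : V} (hu : u ≠ 0) (y : V) : inner ℝ (proj u y) u = 0 := by
  have hn : ‖u‖ ^ 2 ≠ 0 := by positivity
  rw [proj_apply, inner_sub_left, real_inner_smul_left, real_inner_self_eq_norm_sq]
  field_simp
  ring

lemma inner_proj_proj {u : V} (hu : u ≠ 0) (x y : V) :
    inner ℝ (proj u x) (proj u y) = inner ℝ x y - inner ℝ x u * inner ℝ y u / ‖u‖ ^ 2 := by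
  have hn : ‖u‖ ^ 2 ≠ 0 := by positivity
  simp only [proj_apply, inner_sub_left, inner_sub_right, real_inner_smul_left,
    real_inner_smul_right]
  rw [real_inner_self_eq_norm_sq, real_inner_comm y u]
  field_simp
  ring

/-- The point itself is its projection plus a multiple of `u`. -/
lemma eq_proj_add (u y : V) : y = proj u y + (inner ℝ y u / ‖u‖ ^ 2) • u := by
  rw [proj_apply]; abel

lemma gram_proj_aux {u : V} (hu : u ≠ 0) (a b : V) :
    gram (proj u a) (proj u b) = gram a b -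
      (‖a‖ ^ 2 * inner ℝ b u ^ 2 + ‖b‖ ^ 2 * inner ℝ a u ^ 2
        - 2 * inner ℝ a b * inner ℝ a u * inner ℝ b u) / ‖u‖ ^ 2 := by
  have hn : ‖u‖ ^ 2 ≠ 0 := by positivity
  unfold gram
  rw [← real_inner_self_eq_norm_sq (proj u a), ← real_inner_self_eq_norm_sq (proj u b),
    inner_proj_proj hu, inner_proj_proj hu, inner_proj_proj hu,
    real_inner_self_eq_norm_sq, real_inner_self_eq_norm_sq]
  field_simp
  ring

/-- Gram determinant of the projections of two vectors of `e^⊥` along `e + v`, `v ∈ span (a, b)`. -/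
lemma gram_proj {e a b : V} (he : ‖e‖ = 1) (ha : inner ℝ a e = 0) (hb : inner ℝ b e = 0)
    (v1 v2 : ℝ) :
    gram (proj (e + (v1 • a + v2 • b)) a) (proj (e + (v1 • a + v2 • b)) b)
      = gram a b / (1 + ‖v1 • a + v2 • b‖ ^ 2) := by
  have hae : inner ℝ e a = 0 := by rw [real_inner_comm]; exact ha
  have hbe : inner ℝ e b = 0 := by rw [real_inner_comm]; exact hb
  have hee : inner ℝ e e = 1 := by rw [real_inner_self_eq_norm_sq, he]; norm_num
  have hvv : ‖v1 • a + v2 • b‖ ^ 2
      = v1 ^ 2 * ‖a‖ ^ 2 + 2 * v1 * v2 * inner ℝ a b + v2 ^ 2 * ‖b‖ ^ 2 := by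
    rw [← real_inner_self_eq_norm_sq]
    simp only [inner_add_left, inner_add_right, real_inner_smul_left, real_inner_smul_right]
    rw [real_inner_self_eq_norm_sq, real_inner_self_eq_norm_sq, real_inner_comm a b]
    ring
  have hnu : ‖e + (v1 • a + v2 • b)‖ ^ 2 = 1 + ‖v1 • a + v2 • b‖ ^ 2 := by
    rw [hvv, ← real_inner_self_eq_norm_sq]
    simp only [inner_add_left, inner_add_right, real_inner_smul_left, real_inner_smul_right]
    rw [real_inner_self_eq_norm_sq a, real_inner_self_eq_norm_sq b, real_inner_comm a b, hee, hae,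
      hbe, ha, hb]
    ring
  have hpos : (0:ℝ) < 1 + ‖v1 • a + v2 • b‖ ^ 2 := by positivity
  have hu : e + (v1 • a + v2 • b) ≠ 0 := by
    intro h
    rw [h] at hnu
    simp at hnu
    linarith
  have hau : inner ℝ a (e + (v1 • a + v2 • b)) = v1 * ‖a‖ ^ 2 + v2 * inner ℝ a b := by
    simp only [inner_add_right, real_inner_smul_right]
    rw [ha, real_inner_self_eq_norm_sq]
    ring
  have hbu : inner ℝ b (e + (v1 • a + v2 • b)) = v1 * inner ℝ a b + v2 * ‖b‖ ^ 2 := by
    simp only [inner_add_right, real_inner_smul_right]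
    rw [hb, real_inner_self_eq_norm_sq, real_inner_comm a b]
    ring
  rw [gram_proj_aux hu, hnu, hau, hbu]
  have hpos' : (0:ℝ) < 1 + (v1 ^ 2 * ‖a‖ ^ 2 + 2 * v1 * v2 * inner ℝ a b + v2 ^ 2 * ‖b‖ ^ 2) := by
    rw [← hvv]; exact hpos
  rw [hvv]
  have hQ : ‖a‖ ^ 2 * (v1 * inner ℝ a b + v2 * ‖b‖ ^ 2) ^ 2
      + ‖b‖ ^ 2 * (v1 * ‖a‖ ^ 2 + v2 * inner ℝ a b) ^ 2
      - 2 * inner ℝ a b * (v1 * ‖a‖ ^ 2 + v2 * inner ℝ a b) * (v1 * inner ℝ a b + v2 * ‖b‖ ^ 2)
      = gram a b * (v1 ^ 2 * ‖a‖ ^ 2 + 2 * v1 * v2 * inner ℝ a b + v2 ^ 2 * ‖b‖ ^ 2) := by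
    unfold gram
    ring
  rw [hQ]
  generalize (v1 ^ 2 * ‖a‖ ^ 2 + 2 * v1 * v2 * inner ℝ a b + v2 ^ 2 * ‖b‖ ^ 2) = n at hpos' ⊢
  have hn0 : 1 + n ≠ 0 := hpos'.ne'
  field_simp
  ring

lemma affineIndependent_of_gram_pos {p q r : V} (h : 0 < gram (q - p) (r - p)) :
    AffineIndependent ℝ ![p, q, r] := by
  rw [affineIndependent_iff_not_collinear_set]
  intro hcol
  rw [collinear_iff_of_mem (p₀ := p) (by simp)] at hcol
  obtain ⟨v, hv⟩ := hcol
  obtain ⟨r1, h1⟩ := hv q (by simp)
  obtain ⟨r2, h2⟩ := hv r (by simp)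
  have e1 : q - p = r1 • v := by rw [h1]; simp
  have e2 : r - p = r2 • v := by rw [h2]; simp
  rw [e1, e2] at h
  have : gram (r1 • v) (r2 • v) = 0 := by
    unfold gram
    simp only [norm_smul, real_inner_smul_left, real_inner_smul_right, real_inner_self_eq_norm_sq,
      Real.norm_eq_abs, mul_pow, sq_abs]
    ring
  linarith

end general

section hull
variable {V : Type*} [AddCommGroup V] [Module ℝ V]

lemma tri_mem (p q r : V) {m1 m2 : ℝ} (h1 : 0 ≤ m1) (h2 : 0 ≤ m2) (h : m1 + m2 ≤ 1) :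
    p + m1 • (q - p) + m2 • (r - p) ∈ convexHull ℝ ({p, q, r} : Set V) := by
  have hc := convex_convexHull ℝ ({p, q, r} : Set V)
  have hp : p ∈ convexHull ℝ ({p, q, r} : Set V) := subset_convexHull ℝ _ (by simp)
  have hq : q ∈ convexHull ℝ ({p, q, r} : Set V) := subset_convexHull ℝ _ (by simp)
  have hr : r ∈ convexHull ℝ ({p, q, r} : Set V) := subset_convexHull ℝ _ (by simp)
  have key := hc.sum_mem (t := Finset.univ) (w := ![1 - m1 - m2, m1, m2]) (z := ![p, q, r])
    (by
      intro i _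
      fin_cases i
      · simp; linarith
      · simpa using h1
      · simpa using h2)
    (by simp [Fin.sum_univ_three]; ring)
    (by
      intro i _
      fin_cases i
      · simpa using hp
      · simpa using hq
      · simpa using hr)
  have e : p + m1 • (q - p) + m2 • (r - p) = ∑ i, (![1 - m1 - m2, m1, m2] i) • (![p, q, r] i) := by
    simp [Fin.sum_univ_three]
    module
  rw [e]
  exact key

/-- A point with suitable coordinates lies in the thin triangle. -/
lemma tri_cover (P a' b' : V) (ξ c H sl su X Y : ℝ) (hH : 0 < H) (hs : sl < su)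
    (_h0 : 0 ≤ X + ξ) (h1 : X + ξ ≤ H) (h2 : sl * (X + ξ) ≤ Y + c * ξ)
    (h3 : Y + c * ξ ≤ su * (X + ξ)) :
    P + X • a' + Y • b' ∈ convexHull ℝ
      ({P - ξ • a' - (c * ξ) • b', P - ξ • a' - (c * ξ) • b' + H • (a' + sl • b'),
        P - ξ • a' - (c * ξ) • b' + H • (a' + su • b')} : Set V) := by
  have hd : 0 < su - sl := by linarith
  have hHd : 0 < H * (su - sl) := mul_pos hH hd
  set m1 := (su * (X + ξ) - (Y + c * ξ)) / (H * (su - sl)) with hm1
  set m2 := ((Y + c * ξ) - sl * (X + ξ)) / (H * (su - sl)) with hm2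
  have hm1n : 0 ≤ m1 := div_nonneg (by linarith) hHd.le
  have hm2n : 0 ≤ m2 := div_nonneg (by linarith) hHd.le
  have hsum : m1 + m2 = (X + ξ) / H := by
    rw [hm1, hm2]; field_simp; ring
  have hle : m1 + m2 ≤ 1 := by
    rw [hsum, div_le_one hH]; exact h1
  have key := tri_mem (P - ξ • a' - (c * ξ) • b') (P - ξ • a' - (c * ξ) • b' + H • (a' + sl • b'))
    (P - ξ • a' - (c * ξ) • b' + H • (a' + su • b')) hm1n hm2n hle
  have eX : X = (m1 + m2) * H - ξ := by
    rw [hsum]; field_simp; ring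
  have eY : Y = (m1 * sl + m2 * su) * H - c * ξ := by
    rw [hm1, hm2]; field_simp; ring
  have e : P + X • a' + Y • b' = P - ξ • a' - (c * ξ) • b'
      + m1 • (P - ξ • a' - (c * ξ) • b' + H • (a' + sl • b') - (P - ξ • a' - (c * ξ) • b'))
      + m2 • (P - ξ • a' - (c * ξ) • b' + H • (a' + su • b') - (P - ξ • a' - (c * ξ) • b')) := by
    rw [add_sub_cancel_left, add_sub_cancel_left]
    conv_lhs => rw [eX, eY]
    module
  rw [e]
  exact key

end hull

end Crest.Agent.S0328.Helper63
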