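import Mathlib
import Crest.Agent.Lib.S0328.Helper63Geom

/-!
# S0328, helper63: coordinates in `e^⊥` w.r.t. `(a, b)` and mean-value estimates for `w`.
-/

set_option autoImplicit false
open MeasureTheory
open scoped ENNReal

namespace Crest.Agent.S0328.Helper63

/-- First coordinate of `v ∈ span (a, b)` w.r.t. `(a, b)`. -/
noncomputable def co1 (a b v : E3) : ℝ :=
  (‖b‖ ^ 2 * inner ℝ v a - inner ℝ a b * inner ℝ v b) / gram a b

/-- Second coordinate of `v ∈ span (a, b)` w.r.t. `(a, b)`. -/
noncomputable def co2 (a b v : E3) : ℝ :=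
  (‖a‖ ^ 2 * inner ℝ v b - inner ℝ a b * inner ℝ v a) / gram a b

lemma eq_zero_of_perp {e a b : E3} (he : ‖e‖ = 1) (ha : inner ℝ a e = 0) (hb : inner ℝ b e = 0)
    (hab : LinearIndependent ℝ ![a, b]) (d : E3) (hde : inner ℝ e d = 0) (hda : inner ℝ a d = 0)
    (hdb : inner ℝ b d = 0) : d = 0 := by
  have hperp : ∀ x ∈ Submodule.span ℝ (Set.range ![a, b]), inner ℝ x e = 0 := by
    intro x hx
    induction hx using Submodule.span_induction with
    | mem x hx =>
      rcases hx with ⟨i, rfl⟩
      fin_cases i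
      · simpa using ha
      · simpa using hb
    | zero => simp
    | add x y _ _ hx hy => rw [inner_add_left, hx, hy, add_zero]
    | smul r x _ hx => rw [real_inner_smul_left, hx, mul_zero]
  have hnot : e ∉ Submodule.span ℝ (Set.range ![a, b]) := by
    intro hmem
    have := hperp e hmem
    rw [real_inner_self_eq_norm_sq, he] at this
    norm_num at this
  have hli : LinearIndependent ℝ (Fin.cons e ![a, b] : Fin 3 → E3) :=
    linearIndependent_finCons.mpr ⟨hab, hnot⟩
  have htop := LinearIndependent.span_eq_top_of_card_eq_finrank' hli (by simp)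
  have hall : ∀ x ∈ Submodule.span ℝ (Set.range (Fin.cons e ![a, b] : Fin 3 → E3)),
      inner ℝ x d = 0 := by
    intro x hx
    induction hx using Submodule.span_induction with
    | mem x hx =>
      rcases hx with ⟨i, rfl⟩
      fin_cases i
      · simpa using hde
      · simpa using hda
      · simpa using hdb
    | zero => simp
    | add x y _ _ hx hy => rw [inner_add_left, hx, hy, add_zero]
    | smul r x _ hx => rw [real_inner_smul_left, hx, mul_zero]
  have hd := hall d (by rw [htop]; trivial)
  exact inner_self_eq_zero.mp hd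

/-- Every vector of `e^⊥` is a combination of `a` and `b`, with explicit coefficients. -/
lemma eq_coords {e a b : E3} (he : ‖e‖ = 1) (ha : inner ℝ a e = 0) (hb : inner ℝ b e = 0)
    (hab : LinearIndependent ℝ ![a, b]) (v : E3) (hv : inner ℝ v e = 0) :
    v = co1 a b v • a + co2 a b v • b := by
  have hG : gram a b ≠ 0 := (gram_pos_of_linearIndependent hab).ne'
  have k1 : co1 a b v * ‖a‖ ^ 2 + co2 a b v * inner ℝ a b = inner ℝ v a := by
    unfold co1 co2
    rw [div_mul_eq_mul_div, div_mul_eq_mul_div, ← add_div, div_eq_iff hG]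
    unfold gram
    ring
  have k2 : co1 a b v * inner ℝ a b + co2 a b v * ‖b‖ ^ 2 = inner ℝ v b := by
    unfold co1 co2
    rw [div_mul_eq_mul_div, div_mul_eq_mul_div, ← add_div, div_eq_iff hG]
    unfold gram
    ring
  have key : v - (co1 a b v • a + co2 a b v • b) = 0 := by
    apply eq_zero_of_perp he ha hb hab
    · rw [inner_sub_right, inner_add_right, real_inner_smul_right, real_inner_smul_right,
        real_inner_comm a e, real_inner_comm b e, real_inner_comm v e, ha, hb, hv]
      ring
    · rw [inner_sub_right, inner_add_right, real_inner_smul_right, real_inner_smul_right,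
        real_inner_self_eq_norm_sq, real_inner_comm v a, k1]
      ring
    · rw [inner_sub_right, inner_add_right, real_inner_smul_right, real_inner_smul_right,
        real_inner_self_eq_norm_sq, real_inner_comm v b, real_inner_comm a b, k2]
      ring
  exact sub_eq_zero.mp key

lemma co1_a {a b : E3} (hab : LinearIndependent ℝ ![a, b]) : co1 a b a = 1 := by
  have hG : gram a b ≠ 0 := (gram_pos_of_linearIndependent hab).ne'
  unfold co1
  rw [real_inner_self_eq_norm_sq, div_eq_one_iff_eq hG]
  unfold gram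
  ring

lemma co1_b {a b : E3} : co1 a b b = 0 := by
  unfold co1
  rw [real_inner_self_eq_norm_sq, real_inner_comm a b]
  ring_nf

lemma co2_a {a b : E3} : co2 a b a = 0 := by
  unfold co2
  rw [real_inner_self_eq_norm_sq]
  ring_nf

lemma co2_b {a b : E3} (hab : LinearIndependent ℝ ![a, b]) : co2 a b b = 1 := by
  have hG : gram a b ≠ 0 := (gram_pos_of_linearIndependent hab).ne'
  unfold co2
  rw [real_inner_self_eq_norm_sq, real_inner_comm a b, div_eq_one_iff_eq hG]
  unfold gram
  ring

lemma co1_add (a b x y : E3) : co1 a b (x + y) = co1 a b x + co1 a b y := by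
  unfold co1; rw [inner_add_left, inner_add_left]; ring

lemma co1_smul (a b : E3) (r : ℝ) (x : E3) : co1 a b (r • x) = r * co1 a b x := by
  unfold co1; rw [real_inner_smul_left, real_inner_smul_left]; ring

lemma co2_add (a b x y : E3) : co2 a b (x + y) = co2 a b x + co2 a b y := by
  unfold co2; rw [inner_add_left, inner_add_left]; ring

lemma co2_smul (a b : E3) (r : ℝ) (x : E3) : co2 a b (r • x) = r * co2 a b x := by
  unfold co2; rw [real_inner_smul_left, real_inner_smul_left]; ring

/-- Derivative of the first coordinate of a curve. -/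
lemma hasDerivWithinAt_co1 (a b : E3) {w : ℝ → E3} {w' : E3} {s : Set ℝ} {t : ℝ}
    (h : HasDerivWithinAt w w' s t) :
    HasDerivWithinAt (fun τ => co1 a b (w τ)) (co1 a b w') s t := by
  have h1 := HasDerivWithinAt.inner ℝ h (hasDerivWithinAt_const t s a)
  have h2 := HasDerivWithinAt.inner ℝ h (hasDerivWithinAt_const t s b)
  have h3 : HasDerivWithinAt
      (fun τ => (‖b‖ ^ 2 * inner ℝ (w τ) a - inner ℝ a b * inner ℝ (w τ) b) / gram a b)
      ((‖b‖ ^ 2 * (inner ℝ (w t) (0 : E3) + inner ℝ w' a)
        - inner ℝ a b * (inner ℝ (w t) (0 : E3) + inner ℝ w' b)) / gram a b) s t :=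
    ((h1.const_mul (‖b‖ ^ 2)).sub (h2.const_mul (inner ℝ a b))).div_const (gram a b)
  have e : co1 a b w' = (‖b‖ ^ 2 * (inner ℝ (w t) (0 : E3) + inner ℝ w' a)
        - inner ℝ a b * (inner ℝ (w t) (0 : E3) + inner ℝ w' b)) / gram a b := by
    unfold co1
    rw [inner_zero_right, zero_add, zero_add]
  rw [e]
  exact h3

/-- Derivative of the second coordinate of a curve. -/
lemma hasDerivWithinAt_co2 (a b : E3) {w : ℝ → E3} {w' : E3} {s : Set ℝ} {t : ℝ}
    (h : HasDerivWithinAt w w' s t) :
    HasDerivWithinAt (fun τ => co2 a b (w τ)) (co2 a b w') s t := by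
  have h1 := HasDerivWithinAt.inner ℝ h (hasDerivWithinAt_const t s a)
  have h2 := HasDerivWithinAt.inner ℝ h (hasDerivWithinAt_const t s b)
  have h3 : HasDerivWithinAt
      (fun τ => (‖a‖ ^ 2 * inner ℝ (w τ) b - inner ℝ a b * inner ℝ (w τ) a) / gram a b)
      ((‖a‖ ^ 2 * (inner ℝ (w t) (0 : E3) + inner ℝ w' b)
        - inner ℝ a b * (inner ℝ (w t) (0 : E3) + inner ℝ w' a)) / gram a b) s t :=
    ((h2.const_mul (‖a‖ ^ 2)).sub (h1.const_mul (inner ℝ a b))).div_const (gram a b)
  have e : co2 a b w' = (‖a‖ ^ 2 * (inner ℝ (w t) (0 : E3) + inner ℝ w' b)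
        - inner ℝ a b * (inner ℝ (w t) (0 : E3) + inner ℝ w' a)) / gram a b := by
    unfold co2
    rw [inner_zero_right, zero_add, zero_add]
  rw [e]
  exact h3

/-- Mean value inequality on a subinterval of `[α, β]`. -/
lemma mvt_bound {f f' : ℝ → ℝ} {α β : ℝ}
    (hf : ∀ t ∈ Set.Icc α β, HasDerivWithinAt f (f' t) (Set.Icc α β) t) {x y C : ℝ}
    (hx : x ∈ Set.Icc α β) (hy : y ∈ Set.Icc α β)
    (hC : ∀ t ∈ Set.uIcc x y, |f' t| ≤ C) : |f y - f x| ≤ C * |y - x| := by
  have hsub : Set.uIcc x y ⊆ Set.Icc α β := Set.uIcc_subset_Icc hx hy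
  have := Convex.norm_image_sub_le_of_norm_hasDerivWithin_le (f := f) (f' := f')
    (s := Set.uIcc x y) (x := x) (y := y) (C := C)
    (fun t ht => (hf t (hsub ht)).mono hsub)
    (fun t ht => by simpa using hC t ht)
    (convex_uIcc x y) Set.left_mem_uIcc Set.right_mem_uIcc
  simpa using this

end Crest.Agent.S0328.Helper63
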