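import Mathlib
import Crest.Agent.Lib.S0328.Helper63Geom
import Crest.Agent.Lib.S0328.Helper63Coords

/-!
# S0328, helper63: one piece of the radial sweep: the covering thin triangle and the inner triangle.
-/

set_option autoImplicit false
open MeasureTheory
open scoped ENNReal

namespace Crest.Agent.S0328.Helper63

lemma add_ne_zero_of_perp {e v : E3} (he : ‖e‖ = 1) (hv : inner ℝ v e = 0) : e + v ≠ 0 := by
  intro h
  have : inner ℝ (e + v) e = 1 := by
    rw [inner_add_left, hv, real_inner_self_eq_norm_sq, he]; norm_num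
  rw [h, inner_zero_left] at this
  norm_num at this

lemma norm_sq_add_of_perp {e v : E3} (he : ‖e‖ = 1) (hv : inner ℝ v e = 0) :
    ‖e + v‖ ^ 2 = 1 + ‖v‖ ^ 2 := by
  rw [← real_inner_self_eq_norm_sq, inner_add_left, inner_add_right, inner_add_right,
    real_inner_comm v e, hv, real_inner_self_eq_norm_sq, real_inner_self_eq_norm_sq, he]
  ring

lemma gram_proj' {e a b : E3} (he : ‖e‖ = 1) (ha : inner ℝ a e = 0) (hb : inner ℝ b e = 0)
    (hab : LinearIndependent ℝ ![a, b]) (v : E3) (hv : inner ℝ v e = 0) :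
    gram (proj (e + v) a) (proj (e + v) b) = gram a b / (1 + ‖v‖ ^ 2) := by
  obtain ⟨v1, v2, rfl⟩ : ∃ v1 v2 : ℝ, v = v1 • a + v2 • b :=
    ⟨_, _, eq_coords he ha hb hab v hv⟩
  exact gram_proj he ha hb v1 v2

lemma sqrt_gram_formula {G N k : ℝ} (hk : 0 ≤ k) (hN : 0 < N) :
    Real.sqrt (k ^ 2 * (G / N)) / 2 = Real.sqrt G * (k / (2 * Real.sqrt N)) := by
  have hsN : 0 < Real.sqrt N := Real.sqrt_pos.mpr hN
  rw [Real.sqrt_mul (sq_nonneg k), Real.sqrt_sq hk, Real.sqrt_div' G hN.le]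
  field_simp

/-- The increment of `w` in coordinates, with first and second order bounds. -/
lemma w_shift {e a b : E3} (he : ‖e‖ = 1) (ha : inner ℝ a e = 0) (hb : inner ℝ b e = 0)
    (hab : LinearIndependent ℝ ![a, b]) {α β : ℝ}
    {w : ℝ → E3} (hw : ∀ t ∈ Set.Icc α β, inner ℝ (w t) e = 0)
    {lam : ℝ → ℝ}
    (hw' : ∀ t ∈ Set.Icc α β, HasDerivWithinAt w (lam t • (a + t • b)) (Set.Icc α β) t)
    {Lam : ℝ} (hLam : ∀ t ∈ Set.Icc α β, |lam t| ≤ Lam)
    {c τ : ℝ} (hc : c ∈ Set.Icc α β) (hτ : τ ∈ Set.Icc α β) :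
    ∃ A B : ℝ, w τ - w c = A • a + B • b ∧ |A| ≤ Lam * |τ - c| ∧
      |B - τ * A| ≤ Lam * |τ - c| ^ 2 := by
  have hLam0 : 0 ≤ Lam := le_trans (abs_nonneg _) (hLam c hc)
  refine ⟨co1 a b (w τ) - co1 a b (w c), co2 a b (w τ) - co2 a b (w c), ?_, ?_, ?_⟩
  · have h1 := eq_coords he ha hb hab (w τ) (hw τ hτ)
    have h2 := eq_coords he ha hb hab (w c) (hw c hc)
    conv_lhs => rw [h1, h2]
    module
  · have hd : ∀ t ∈ Set.Icc α β,
        HasDerivWithinAt (fun x => co1 a b (w x)) (lam t) (Set.Icc α β) t := by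
      intro t ht
      have := hasDerivWithinAt_co1 a b (hw' t ht)
      have e1 : co1 a b (lam t • (a + t • b)) = lam t := by
        rw [co1_smul, co1_add, co1_smul, co1_a hab, co1_b]; ring
      rwa [e1] at this
    exact mvt_bound (f := fun x => co1 a b (w x)) (f' := lam) hd hc hτ
      (fun t ht => hLam t (Set.uIcc_subset_Icc hc hτ ht))
  · have hd : ∀ t ∈ Set.Icc α β,
        HasDerivWithinAt (fun x => co2 a b (w x) - τ * co1 a b (w x)) (lam t * (t - τ))
          (Set.Icc α β) t := by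
      intro t ht
      have h1 := hasDerivWithinAt_co1 a b (hw' t ht)
      have h2 := hasDerivWithinAt_co2 a b (hw' t ht)
      have e1 : co1 a b (lam t • (a + t • b)) = lam t := by
        rw [co1_smul, co1_add, co1_smul, co1_a hab, co1_b]; ring
      have e2 : co2 a b (lam t • (a + t • b)) = lam t * t := by
        rw [co2_smul, co2_add, co2_smul, co2_a, co2_b hab]; ring
      rw [e1] at h1
      rw [e2] at h2
      have h3 := h2.sub (h1.const_mul τ)
      have e3 : lam t * (t - τ) = lam t * t - τ * lam t := by ring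
      rw [e3]
      exact h3
    have hb' := mvt_bound (f := fun x => co2 a b (w x) - τ * co1 a b (w x))
      (f' := fun t => lam t * (t - τ)) (C := Lam * |τ - c|) hd hc hτ
      (fun t ht => by
        rw [abs_mul]
        have h1 := hLam t (Set.uIcc_subset_Icc hc hτ ht)
        have h2 : |t - τ| ≤ |τ - c| := by
          rw [abs_sub_comm t τ]
          exact Set.abs_sub_right_of_mem_uIcc ht
        exact mul_le_mul h1 h2 (abs_nonneg _) hLam0)
    have e4 : co2 a b (w τ) - co2 a b (w c) - τ * (co1 a b (w τ) - co1 a b (w c))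
        = (co2 a b (w τ) - τ * co1 a b (w τ)) - (co2 a b (w c) - τ * co1 a b (w c)) := by ring
    rw [e4]
    calc _ ≤ Lam * |τ - c| * |τ - c| := hb'
      _ = Lam * |τ - c| ^ 2 := by ring

/-- The core inequality for the covering by the thin triangle. -/
lemma core_ineq {K Δ δ θ ξ X ε m n : ℝ} (hK : 0 ≤ K) (hΔ : 0 < Δ) (hΔδ : Δ ≤ δ) (hθ : 0 < θ)
    (hξ : θ * ξ = (θ + 2) * K * δ) (hX : -(K * Δ) ≤ X) (hε : |ε| ≤ K * Δ ^ 2)
    (hm0 : 0 ≤ m) (hm1 : m ≤ Δ) (hn0 : 0 ≤ n) :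
    0 ≤ (m + θ * Δ) * X + (n + θ * Δ) * ξ + ε := by
  have hδ : 0 < δ := lt_of_lt_of_le hΔ hΔδ
  have hξ0 : 0 ≤ ξ := by
    have h1 : 0 ≤ θ * ξ := by rw [hξ]; positivity
    exact nonneg_of_mul_nonneg_right h1 hθ
  have h1 : -((m + θ * Δ) * (K * Δ)) ≤ (m + θ * Δ) * X := by
    have := mul_le_mul_of_nonneg_left hX (by positivity : 0 ≤ m + θ * Δ)
    linarith
  have h2 : (m + θ * Δ) * (K * Δ) ≤ (Δ + θ * Δ) * (K * Δ) := by
    apply mul_le_mul_of_nonneg_right (by linarith) (by positivity)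
  have h3 : θ * Δ * ξ ≤ (n + θ * Δ) * ξ := by
    have := mul_nonneg hn0 hξ0
    nlinarith
  have h4 : θ * Δ * ξ = Δ * ((θ + 2) * K * δ) := by rw [← hξ]; ring
  have h5 : Δ * ((θ + 2) * K * Δ) ≤ Δ * ((θ + 2) * K * δ) := by
    apply mul_le_mul_of_nonneg_left _ hΔ.le
    apply mul_le_mul_of_nonneg_left hΔδ (by positivity)
  have h6 := (abs_le.mp hε).1
  have e1 : (Δ + θ * Δ) * (K * Δ) = (1 + θ) * (K * Δ ^ 2) := by ring
  have e2 : Δ * ((θ + 2) * K * Δ) = (θ + 2) * (K * Δ ^ 2) := by ring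
  linarith

end Crest.Agent.S0328.Helper63
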