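import Mathlib
import Crest.Agent.Lib.S0328.Helper63Geom
import Crest.Agent.Lib.S0328.Helper63Coords
import Crest.Agent.Lib.S0328.Helper63Piece

/-!
# S0328, helper63: the inner triangle of one piece (lower bound for the projected piece).
-/

set_option autoImplicit false
open MeasureTheory
open scoped ENNReal

namespace Crest.Agent.S0328.Helper63

/-- The inner triangle of one piece: lower bound for the area of the projected piece. -/
lemma piece_inner
    (harea : ∀ p q r : E3, μHE[2] (convexHull ℝ ({p, q, r} : Set E3))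
      = ENNReal.ofReal (Real.sqrt (gram (q - p) (r - p)) / 2))
    {e a b : E3} (p₀ : E3) (he : ‖e‖ = 1) (ha : inner ℝ a e = 0) (hb : inner ℝ b e = 0)
    (hab : LinearIndependent ℝ ![a, b]) {L : ℝ} (hL : 0 < L) {α β : ℝ}
    {R : ℝ → ℝ} (hR0 : ∀ t ∈ Set.Icc α β, 0 ≤ R t)
    {w : ℝ → E3} (hw : ∀ t ∈ Set.Icc α β, inner ℝ (w t) e = 0)
    {θ δ : ℝ}
    (hunif : ∀ x ∈ Set.Icc α β, ∀ y ∈ Set.Icc α β, |x - y| ≤ δ → |R x - R y| ≤ θ)
    {t0 t1 c : ℝ} (ht0 : α ≤ t0) (ht01 : t0 < t1) (ht1 : t1 ≤ β) (hmesh : t1 - t0 ≤ δ)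
    (hc0 : t0 ≤ c) (hc1 : c ≤ t1) :
    ENNReal.ofReal (Real.sqrt (gram a b) * ((t1 - t0) *
        ((max (R c - θ) 0) ^ 2 / (2 * Real.sqrt (1 + ‖w c‖ ^ 2)))))
      ≤ μHE[2] (proj (e + w c) '' {x : E3 | ∃ τ ∈ Set.Icc t0 t1, ∃ ρ ∈ Set.Icc 0 (R τ),
          ∃ s : ℝ, |s| ≤ L ∧ x = p₀ + ρ • (a + τ • b) + s • (e + w τ)}) := by
  have hcI : c ∈ Set.Icc α β := ⟨by linarith, by linarith⟩
  have hwc := hw c hcI
  have hN : (0:ℝ) < 1 + ‖w c‖ ^ 2 := by positivity
  have hgp : gram (proj (e + w c) a) (proj (e + w c) b) = gram a b / (1 + ‖w c‖ ^ 2) :=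
    gram_proj' he ha hb hab (w c) hwc
  have hΔ : 0 < t1 - t0 := by linarith
  set u := e + w c with hu_def
  set m := max (R c - θ) 0 with hm
  have hm0 : 0 ≤ m := le_max_right _ _
  have hmR : ∀ τ ∈ Set.Icc t0 t1, m ≤ R τ := by
    intro τ hτ
    have hτI : τ ∈ Set.Icc α β := ⟨by linarith [hτ.1], by linarith [hτ.2]⟩
    have hτc : |c - τ| ≤ δ := by
      apply le_trans _ hmesh
      rw [abs_le]; constructor <;> linarith [hτ.1, hτ.2]
    have h1 := (abs_le.mp (hunif c hcI τ hτI hτc)).2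
    exact max_le (by linarith) (hR0 τ hτI)
  -- the inner triangle lies in the piece
  have hsub : convexHull ℝ ({p₀, p₀ + m • (a + t0 • b), p₀ + m • (a + t1 • b)} : Set E3)
      ⊆ {x : E3 | ∃ τ ∈ Set.Icc t0 t1, ∃ ρ ∈ Set.Icc 0 (R τ),
          ∃ s : ℝ, |s| ≤ L ∧ x = p₀ + ρ • (a + τ • b) + s • (e + w τ)} := by
    intro x hx
    rw [convexHull_insert (by simp), convexHull_pair, mem_convexJoin] at hx
    obtain ⟨y, hy, z, hz, hxz⟩ := hx
    rw [Set.mem_singleton_iff] at hy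
    subst hy
    obtain ⟨ν1, ν2, hν1, hν2, hν, rfl⟩ := hz
    obtain ⟨μ1, μ2, hμ1, hμ2, hμ, rfl⟩ := hxz
    have hν1' : ν1 = 1 - ν2 := by linarith
    have hμ1' : μ1 = 1 - μ2 := by linarith
    subst hν1' hμ1'
    have hτ : (1 - ν2) * t0 + ν2 * t1 ∈ Set.Icc t0 t1 := by
      constructor <;> nlinarith
    refine ⟨(1 - ν2) * t0 + ν2 * t1, hτ, μ2 * m, ⟨by positivity, ?_⟩, 0,
      by simpa using hL.le, ?_⟩
    · have := hmR _ hτ
      nlinarith
    · module
  have himg : proj u '' convexHull ℝ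
        ({p₀, p₀ + m • (a + t0 • b), p₀ + m • (a + t1 • b)} : Set E3)
      = convexHull ℝ ({proj u p₀, proj u p₀ + m • (proj u a + t0 • proj u b),
          proj u p₀ + m • (proj u a + t1 • proj u b)} : Set E3) := by
    rw [LinearMap.image_convexHull]
    congr 1
    simp only [Set.image_insert_eq, Set.image_singleton, map_add, map_smul]
  have hgram : gram (m • (proj u a + t0 • proj u b)) (m • (proj u a + t1 • proj u b))
      = (m ^ 2 * (t1 - t0)) ^ 2 * (gram a b / (1 + ‖w c‖ ^ 2)) := by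
    have e1 : m • (proj u a + t0 • proj u b) = m • proj u a + (m * t0) • proj u b := by module
    have e2 : m • (proj u a + t1 • proj u b) = m • proj u a + (m * t1) • proj u b := by module
    rw [e1, e2, gram_lin, hgp]
    ring
  have hk : 0 ≤ m ^ 2 * (t1 - t0) := by positivity
  have harea' : μHE[2] (convexHull ℝ ({proj u p₀, proj u p₀ + m • (proj u a + t0 • proj u b),
          proj u p₀ + m • (proj u a + t1 • proj u b)} : Set E3))
      = ENNReal.ofReal (Real.sqrt (gram a b) * ((t1 - t0) *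
        (m ^ 2 / (2 * Real.sqrt (1 + ‖w c‖ ^ 2))))) := by
    rw [harea, add_sub_cancel_left, add_sub_cancel_left, hgram, sqrt_gram_formula hk hN]
    congr 1
    have hsN : 0 < Real.sqrt (1 + ‖w c‖ ^ 2) := Real.sqrt_pos.mpr hN
    field_simp
  rw [← harea', ← himg]
  exact measure_mono (Set.image_mono hsub)

end Crest.Agent.S0328.Helper63
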