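import Mathlib

/-!
# S0328, helper63: tagged Riemann sums over a partition indexed by `Fin (N + 1)`.
-/

set_option autoImplicit false
open MeasureTheory
open scoped ENNReal

namespace Crest.Agent.S0328.Helper63

lemma fin_telescope (N : ℕ) (g : Fin (N + 1) → ℝ) :
    ∑ i : Fin N, (g i.succ - g i.castSucc) = g (Fin.last N) - g 0 := by
  induction N with
  | zero => simp
  | succ n ih =>
    rw [Fin.sum_univ_castSucc]
    have h := ih (fun i => g i.castSucc)
    simp only [Fin.succ_castSucc] at h ⊢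
    rw [h]
    simp only [Fin.succ_last, Fin.castSucc_zero]
    ring

lemma partition_mem {N : ℕ} {t : Fin (N + 1) → ℝ} (hmono : StrictMono t) {α β : ℝ}
    (h0 : t 0 = α) (hlast : t (Fin.last N) = β) (k : Fin (N + 1)) : t k ∈ Set.Icc α β := by
  constructor
  · rw [← h0]; exact hmono.monotone (Fin.zero_le k)
  · rw [← hlast]; exact hmono.monotone (Fin.le_last k)

lemma exists_piece {N : ℕ} (t : Fin (N + 1) → ℝ) (hmono : StrictMono t) {τ : ℝ}
    (h0 : t 0 ≤ τ) (h1 : τ ≤ t (Fin.last N)) (hN : 0 < N) :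
    ∃ i : Fin N, t i.castSucc ≤ τ ∧ τ ≤ t i.succ := by
  refine Fin.induction
    (motive := fun k => τ ≤ t k → ∃ i : Fin N, t i.castSucc ≤ τ ∧ τ ≤ t i.succ) ?_ ?_
    (Fin.last N) h1
  · intro h
    refine ⟨⟨0, hN⟩, ?_, ?_⟩
    · exact h0
    · exact le_trans h (hmono.monotone (Fin.zero_le _))
  · intro j ih h
    by_cases hj : τ ≤ t j.castSucc
    · exact ih hj
    · exact ⟨j, le_of_lt (not_le.mp hj), h⟩

/-- Tagged Riemann sums with perturbed values are close to the integral. -/
lemma riemann {α β : ℝ} {F : ℝ → ℝ} (hF : ContinuousOn F (Set.Icc α β)) {δ ε : ℝ}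
    (hunif : ∀ x ∈ Set.Icc α β, ∀ y ∈ Set.Icc α β, |x - y| ≤ δ → |F x - F y| ≤ ε)
    (N : ℕ) (t : Fin (N + 1) → ℝ) (c : Fin N → ℝ) (hmono : StrictMono t) (h0 : t 0 = α)
    (hlast : t (Fin.last N) = β)
    (hmesh : ∀ i : Fin N, t i.succ - t i.castSucc ≤ δ)
    (hc : ∀ i : Fin N, t i.castSucc ≤ c i ∧ c i ≤ t i.succ)
    (G : Fin N → ℝ) {ε' : ℝ} (hG : ∀ i, |G i - F (c i)| ≤ ε') :
    |∑ i, (t i.succ - t i.castSucc) * G i - ∫ τ in α..β, F τ| ≤ (ε + ε') * (β - α) := by
  have hmem := partition_mem hmono h0 hlast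
  have hint : ∀ x ∈ Set.Icc α β, ∀ y ∈ Set.Icc α β, IntervalIntegrable F volume x y := by
    intro x hx y hy
    apply ContinuousOn.intervalIntegrable
    exact hF.mono (Set.uIcc_subset_Icc hx hy)
  have hαmem : α ∈ Set.Icc α β := by have := hmem 0; rwa [h0] at this
  -- the integral as a telescoping sum
  have hsum : ∫ τ in α..β, F τ = ∑ i : Fin N, ∫ τ in (t i.castSucc)..(t i.succ), F τ := by
    have h1 : ∀ i : Fin N, ∫ τ in (t i.castSucc)..(t i.succ), F τ
        = (∫ τ in α..(t i.succ), F τ) - ∫ τ in α..(t i.castSucc), F τ := by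
      intro i
      rw [intervalIntegral.integral_interval_sub_left (hint α hαmem _ (hmem _))
        (hint α hαmem _ (hmem _))]
    rw [Finset.sum_congr rfl (fun i _ => h1 i),
      fin_telescope N (fun k => ∫ τ in α..(t k), F τ), hlast, h0,
      intervalIntegral.integral_same, sub_zero]
  have hlen : ∑ i : Fin N, (t i.succ - t i.castSucc) = β - α := by
    rw [fin_telescope N t, hlast, h0]
  -- termwise estimate
  have hterm : ∀ i : Fin N,
      |(t i.succ - t i.castSucc) * G i - ∫ τ in (t i.castSucc)..(t i.succ), F τ|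
        ≤ (ε + ε') * (t i.succ - t i.castSucc) := by
    intro i
    have hlt : t i.castSucc < t i.succ := hmono (Fin.castSucc_lt_succ (i := i))
    have hci : c i ∈ Set.Icc α β :=
      ⟨le_trans (hmem _).1 (hc i).1, le_trans (hc i).2 (hmem _).2⟩
    have e1 : (t i.succ - t i.castSucc) * G i - ∫ τ in (t i.castSucc)..(t i.succ), F τ
        = ∫ τ in (t i.castSucc)..(t i.succ), (G i - F τ) := by
      rw [intervalIntegral.integral_sub intervalIntegrable_const (hint _ (hmem _) _ (hmem _)),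
        intervalIntegral.integral_const, smul_eq_mul]
    rw [e1]
    have hb : ∀ τ ∈ Set.uIoc (t i.castSucc) (t i.succ), ‖G i - F τ‖ ≤ ε + ε' := by
      intro τ hτ
      rw [Set.uIoc_of_le hlt.le] at hτ
      have hτI : τ ∈ Set.Icc α β :=
        ⟨le_trans (hmem _).1 hτ.1.le, le_trans hτ.2 (hmem _).2⟩
      have hd : |c i - τ| ≤ δ := by
        apply le_trans _ (hmesh i)
        rw [abs_le]; constructor <;> linarith [hτ.1, hτ.2, (hc i).1, (hc i).2]
      have h1 := hunif (c i) hci τ hτI hd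
      have h2 := hG i
      rw [Real.norm_eq_abs]
      calc |G i - F τ| = |(G i - F (c i)) + (F (c i) - F τ)| := by ring_nf
        _ ≤ |G i - F (c i)| + |F (c i) - F τ| := abs_add_le _ _
        _ ≤ ε' + ε := add_le_add h2 h1
        _ = ε + ε' := by ring
    have := intervalIntegral.norm_integral_le_of_norm_le_const hb
    rw [Real.norm_eq_abs, abs_of_pos (by linarith : 0 < t i.succ - t i.castSucc)] at this
    exact this
  rw [hsum, ← Finset.sum_sub_distrib]
  calc |∑ i : Fin N, ((t i.succ - t i.castSucc) * G i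
          - ∫ τ in (t i.castSucc)..(t i.succ), F τ)|
      ≤ ∑ i : Fin N, |(t i.succ - t i.castSucc) * G i
          - ∫ τ in (t i.castSucc)..(t i.succ), F τ| := Finset.abs_sum_le_sum_abs _ _
    _ ≤ ∑ i : Fin N, (ε + ε') * (t i.succ - t i.castSucc) :=
        Finset.sum_le_sum (fun i _ => hterm i)
    _ = (ε + ε') * (β - α) := by rw [← Finset.mul_sum, hlen]

end Crest.Agent.S0328.Helper63
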