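import Mathlib
import Crest.Agent.Lib.S0328.Helper63Geom
import Crest.Agent.Lib.S0328.Helper63Coords
import Crest.Agent.Lib.S0328.Helper63Piece

/-!
# S0328, helper63: the covering triangle of one piece and the inner triangle of one piece.
-/

set_option autoImplicit false
open MeasureTheory
open scoped ENNReal

namespace Crest.Agent.S0328.Helper63

/-- The covering thin triangle of one piece. -/
lemma piece
    (harea : ∀ p q r : E3, μHE[2] (convexHull ℝ ({p, q, r} : Set E3))
      = ENNReal.ofReal (Real.sqrt (gram (q - p) (r - p)) / 2))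
    {e a b : E3} (p₀ : E3) (he : ‖e‖ = 1) (ha : inner ℝ a e = 0) (hb : inner ℝ b e = 0)
    (hab : LinearIndependent ℝ ![a, b]) {L : ℝ} (hL : 0 < L) {α β : ℝ}
    {R : ℝ → ℝ} (hR0 : ∀ t ∈ Set.Icc α β, 0 ≤ R t)
    {w : ℝ → E3} (hw : ∀ t ∈ Set.Icc α β, inner ℝ (w t) e = 0)
    {lam : ℝ → ℝ}
    (hw' : ∀ t ∈ Set.Icc α β, HasDerivWithinAt w (lam t • (a + t • b)) (Set.Icc α β) t)
    {Lam : ℝ} (hLam0 : 0 < Lam) (hLam : ∀ t ∈ Set.Icc α β, |lam t| ≤ Lam)
    {θ δ : ℝ} (hθ : 0 < θ) (hδ : 0 < δ) (hδθ : 2 * L * Lam * δ * (θ + 1) ≤ θ ^ 2)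
    (hunif : ∀ x ∈ Set.Icc α β, ∀ y ∈ Set.Icc α β, |x - y| ≤ δ → |R x - R y| ≤ θ)
    {t0 t1 c : ℝ} (ht0 : α ≤ t0) (ht01 : t0 < t1) (ht1 : t1 ≤ β) (hmesh : t1 - t0 ≤ δ)
    (hc0 : t0 ≤ c) (hc1 : c ≤ t1) :
    ∃ p q r : E3,
      (inner ℝ p (e + w c) = 0 ∧ inner ℝ q (e + w c) = 0 ∧ inner ℝ r (e + w c) = 0) ∧
      AffineIndependent ℝ ![p, q, r] ∧
      (∀ τ ∈ Set.Icc t0 t1, ∀ ρ ∈ Set.Icc 0 (R τ), ∀ s : ℝ, |s| ≤ L →
        proj (e + w c) (p₀ + ρ • (a + τ • b) + s • (e + w τ))
          ∈ convexHull ℝ ({p, q, r} : Set E3)) ∧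
      μHE[2] (convexHull ℝ ({p, q, r} : Set E3)) = ENNReal.ofReal
        (Real.sqrt (gram a b) * ((t1 - t0) *
          ((1 + 2 * θ) * (R c + 2 * θ) ^ 2 / (2 * Real.sqrt (1 + ‖w c‖ ^ 2))))) := by
  have hcI : c ∈ Set.Icc α β := ⟨by linarith, by linarith⟩
  have hwc := hw c hcI
  have hu : e + w c ≠ 0 := add_ne_zero_of_perp he hwc
  have hG : 0 < gram a b := gram_pos_of_linearIndependent hab
  have hN : (0:ℝ) < 1 + ‖w c‖ ^ 2 := by positivity
  have hgp : gram (proj (e + w c) a) (proj (e + w c) b) = gram a b / (1 + ‖w c‖ ^ 2) :=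
    gram_proj' he ha hb hab (w c) hwc
  have hRc : 0 ≤ R c := hR0 c hcI
  have hΔ : 0 < t1 - t0 := by linarith
  have hK : 0 < L * Lam := mul_pos hL hLam0
  -- parameters of the triangle
  set u := e + w c with hu_def
  set a' := proj u a with ha'
  set b' := proj u b with hb'
  set P := proj u p₀ with hP
  set ξ := L * Lam * δ * (1 + 2 / θ) with hξ
  set H := R c + 2 * θ with hH
  set sl := t0 - θ * (t1 - t0) with hsl
  set su := t1 + θ * (t1 - t0) with hsu
  have hHpos : 0 < H := by rw [hH]; linarith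
  have hslu : sl < su := by
    rw [hsl, hsu]
    have : 0 < θ * (t1 - t0) := mul_pos hθ hΔ
    linarith
  have hξθ : θ * ξ = (θ + 2) * (L * Lam) * δ := by
    rw [hξ]; field_simp
  have hξ0 : 0 ≤ ξ := by rw [hξ]; positivity
  have hξ1 : L * Lam * δ ≤ ξ := by
    rw [hξ]
    have h2 : 0 ≤ 2 / θ := by positivity
    have h3 : 0 ≤ L * Lam * δ := by positivity
    nlinarith
  have hξ2 : L * Lam * δ + ξ ≤ θ := by
    have h1 : θ * (L * Lam * δ + ξ) ≤ θ * θ := by
      have : θ * (L * Lam * δ + ξ) = 2 * L * Lam * δ * (θ + 1) := by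
        rw [mul_add, hξθ]; ring
      rw [this]
      calc 2 * L * Lam * δ * (θ + 1) ≤ θ ^ 2 := hδθ
        _ = θ * θ := by ring
    exact le_of_mul_le_mul_left h1 hθ
  have ha'u : inner ℝ a' u = 0 := inner_proj_self hu a
  have hb'u : inner ℝ b' u = 0 := inner_proj_self hu b
  have hPu : inner ℝ P u = 0 := inner_proj_self hu p₀
  have hpu : inner ℝ (P - ξ • a' - (c * ξ) • b') u = 0 := by
    rw [inner_sub_left, inner_sub_left, real_inner_smul_left, real_inner_smul_left, ha'u, hb'u,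
      hPu]
    ring
  have hgram : ∀ s1 s2 : ℝ, gram (H • (a' + s1 • b')) (H • (a' + s2 • b'))
      = (H ^ 2 * (s2 - s1)) ^ 2 * (gram a b / (1 + ‖w c‖ ^ 2)) := by
    intro s1 s2
    have e1 : H • (a' + s1 • b') = H • a' + (H * s1) • b' := by module
    have e2 : H • (a' + s2 • b') = H • a' + (H * s2) • b' := by module
    rw [e1, e2, gram_lin, hgp]
    ring
  refine ⟨P - ξ • a' - (c * ξ) • b', P - ξ • a' - (c * ξ) • b' + H • (a' + sl • b'),
    P - ξ • a' - (c * ξ) • b' + H • (a' + su • b'), ⟨hpu, ?_, ?_⟩, ?_, ?_, ?_⟩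
  · rw [inner_add_left, hpu, real_inner_smul_left, inner_add_left, real_inner_smul_left, ha'u,
      hb'u]
    ring
  · rw [inner_add_left, hpu, real_inner_smul_left, inner_add_left, real_inner_smul_left, ha'u,
      hb'u]
    ring
  · apply affineIndependent_of_gram_pos
    rw [add_sub_cancel_left, add_sub_cancel_left, hgram]
    have h1 : 0 < H ^ 2 * (su - sl) := by
      have : 0 < su - sl := by linarith
      positivity
    have h2 : 0 < gram a b / (1 + ‖w c‖ ^ 2) := div_pos hG hN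
    positivity
  · intro τ hτ ρ hρ s hs
    have hτI : τ ∈ Set.Icc α β := ⟨by linarith [hτ.1], by linarith [hτ.2]⟩
    obtain ⟨A, B, hAB, hA, hB⟩ := w_shift he ha hb hab hw hw' hLam hcI hτI
    have hτc : |τ - c| ≤ t1 - t0 := by
      rw [abs_le]; constructor <;> linarith [hτ.1, hτ.2]
    have hτc0 : 0 ≤ |τ - c| := abs_nonneg _
    have hRτ : R τ ≤ R c + θ := by
      have := hunif τ hτI c hcI (le_trans hτc hmesh)
      have := (abs_le.mp this).2
      linarith
    -- rewrite the point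
    have hwτ : w τ = w c + (A • a + B • b) := by rw [← hAB]; abel
    have hx : p₀ + ρ • (a + τ • b) + s • (e + w τ)
        = p₀ + (ρ + s * A) • a + (ρ * τ + s * B) • b + s • u := by
      rw [hwτ, hu_def]; module
    have hproj : proj u (p₀ + ρ • (a + τ • b) + s • (e + w τ))
        = P + (ρ + s * A) • a' + (ρ * τ + s * B) • b' := by
      rw [hx, map_add, map_add, map_add, map_smul, map_smul, map_smul, proj_self hu, smul_zero,
        add_zero]
    rw [hproj]
    -- bounds
    have hsA : |s * A| ≤ L * Lam * (t1 - t0) := by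
      rw [abs_mul]
      calc |s| * |A| ≤ L * (Lam * |τ - c|) :=
            mul_le_mul hs hA (abs_nonneg _) hL.le
        _ ≤ L * (Lam * (t1 - t0)) := by
            apply mul_le_mul_of_nonneg_left _ hL.le
            exact mul_le_mul_of_nonneg_left hτc hLam0.le
        _ = L * Lam * (t1 - t0) := by ring
    have hsB : |s * (B - τ * A)| ≤ L * Lam * (t1 - t0) ^ 2 := by
      rw [abs_mul]
      calc |s| * |B - τ * A| ≤ L * (Lam * |τ - c| ^ 2) :=
            mul_le_mul hs hB (abs_nonneg _) hL.le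
        _ ≤ L * (Lam * (t1 - t0) ^ 2) := by
            apply mul_le_mul_of_nonneg_left _ hL.le
            apply mul_le_mul_of_nonneg_left _ hLam0.le
            exact pow_le_pow_left₀ hτc0 hτc 2
        _ = L * Lam * (t1 - t0) ^ 2 := by ring
    have hX1 := (abs_le.mp hsA).1
    have hX2 := (abs_le.mp hsA).2
    have hKΔδ : L * Lam * (t1 - t0) ≤ L * Lam * δ := mul_le_mul_of_nonneg_left hmesh hK.le
    have hY : ρ * τ + s * B = τ * (ρ + s * A) + s * (B - τ * A) := by ring
    have hXlow : -(L * Lam * (t1 - t0)) ≤ ρ + s * A := by linarith [hρ.1]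
    apply tri_cover P a' b' ξ c H sl su (ρ + s * A) (ρ * τ + s * B) hHpos hslu
    · linarith [hρ.1]
    · rw [hH]; linarith [hρ.2]
    · -- lower side
      have key := core_ineq (K := L * Lam) (Δ := t1 - t0) (δ := δ) (θ := θ) (ξ := ξ)
        (X := ρ + s * A) (ε := s * (B - τ * A)) (m := τ - t0) (n := c - t0)
        hK.le hΔ hmesh hθ hξθ hXlow hsB (by linarith [hτ.1]) (by linarith [hτ.2])
        (by linarith)
      rw [hY, hsl]
      linarith
    · -- upper side
      have hsB' : |-(s * (B - τ * A))| ≤ L * Lam * (t1 - t0) ^ 2 := by rw [abs_neg]; exact hsB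
      have key := core_ineq (K := L * Lam) (Δ := t1 - t0) (δ := δ) (θ := θ) (ξ := ξ)
        (X := ρ + s * A) (ε := -(s * (B - τ * A))) (m := t1 - τ) (n := t1 - c)
        hK.le hΔ hmesh hθ hξθ hXlow hsB' (by linarith [hτ.2]) (by linarith [hτ.1])
        (by linarith)
      rw [hY, hsu]
      linarith
  · rw [harea, add_sub_cancel_left, add_sub_cancel_left, hgram]
    have hk : 0 ≤ H ^ 2 * (su - sl) := by
      have : 0 < su - sl := by linarith
      positivity
    rw [sqrt_gram_formula hk hN]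
    congr 1
    have hsN : 0 < Real.sqrt (1 + ‖w c‖ ^ 2) := Real.sqrt_pos.mpr hN
    rw [hsu, hsl]
    field_simp
    ring

end Crest.Agent.S0328.Helper63
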