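import Mathlib
import Crest.Agent.Lib.S0328.Helper63Geom
import Crest.Agent.Lib.S0328.Helper63Coords
import Crest.Agent.Lib.S0328.Helper63Piece
import Crest.Agent.Lib.S0328.Helper63Tri
import Crest.Agent.Lib.S0328.Helper63Inner
import Crest.Agent.Lib.S0328.Helper63Riemann

/-!
# S0328, helper63: assembly (modulo the Gram formula for the area of a triangle in `ℝ³`).
-/

set_option autoImplicit false
open MeasureTheory
open scoped ENNReal

namespace Crest.Agent.S0328.Helper63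

lemma div_bound {x D B : ℝ} (hD : 2 ≤ D) (hx0 : 0 ≤ x) (hx : x ≤ 2 * B) : |x / D| ≤ B := by
  have hDpos : 0 < D := by linarith
  have hB : 0 ≤ B := by linarith
  rw [abs_of_nonneg (div_nonneg hx0 hDpos.le), div_le_iff₀ hDpos]
  nlinarith

/-- S0328, assuming the Gram formula for the area of a triangle. -/
theorem main_of_area
    (harea : ∀ p q r : E3, μHE[2] (convexHull ℝ ({p, q, r} : Set E3))
      = ENNReal.ofReal (Real.sqrt (gram (q - p) (r - p)) / 2))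
    (e a b p₀ : EuclideanSpace ℝ (Fin 3)) (he : ‖e‖ = 1)
    (ha : inner ℝ a e = 0) (hb : inner ℝ b e = 0) (_hp₀ : inner ℝ p₀ e = 0)
    (hab : LinearIndependent ℝ ![a, b]) (L : ℝ) (hL : 0 < L) (α β : ℝ) (hαβ : α < β)
    (R : ℝ → ℝ) (hR : ContinuousOn R (Set.Icc α β)) (hR0 : ∀ t ∈ Set.Icc α β, 0 ≤ R t)
    (w : ℝ → EuclideanSpace ℝ (Fin 3)) (hw : ∀ t ∈ Set.Icc α β, inner ℝ (w t) e = 0)
    (lam : ℝ → ℝ) (hlam : ContinuousOn lam (Set.Icc α β))
    (hw' : ∀ t ∈ Set.Icc α β, HasDerivWithinAt w (lam t • (a + t • b)) (Set.Icc α β) t)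
    (η : ℝ) (hη : 0 < η) :
    ∃ δ : ℝ, 0 < δ ∧ ∀ (N : ℕ) (t : Fin (N + 1) → ℝ) (c : Fin N → ℝ),
      StrictMono t → t 0 = α → t (Fin.last N) = β →
      (∀ i : Fin N, t i.succ - t i.castSucc ≤ δ) →
      (∀ i : Fin N, t i.castSucc ≤ c i ∧ c i ≤ t i.succ) →
      (∃ (p q r : Fin N → EuclideanSpace ℝ (Fin 3)),
        (∀ i, inner ℝ (p i) (e + w (c i)) = 0 ∧ inner ℝ (q i) (e + w (c i)) = 0 ∧
          inner ℝ (r i) (e + w (c i)) = 0) ∧
        (∀ i, AffineIndependent ℝ ![p i, q i, r i]) ∧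
        {x : EuclideanSpace ℝ (Fin 3) | ∃ τ ∈ Set.Icc α β, ∃ ρ ∈ Set.Icc 0 (R τ), ∃ s : ℝ, abs s ≤ L ∧
            x = p₀ + ρ • (a + τ • b) + s • (e + w τ)} ⊆
          ⋃ i, {x : EuclideanSpace ℝ (Fin 3) | ∃ y ∈ convexHull ℝ {p i, q i, r i}, ∃ σ : ℝ,
            x = y + σ • (e + w (c i))} ∧
        abs ((∑ i, (μHE[2] (convexHull ℝ ({p i, q i, r i} : Set (EuclideanSpace ℝ (Fin 3))))).toReal) -
            Real.sqrt (‖a‖ ^ 2 * ‖b‖ ^ 2 - inner ℝ a b ^ 2) *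
              ∫ τ in α..β, R τ ^ 2 / (2 * Real.sqrt (1 + ‖w τ‖ ^ 2))) ≤ η) ∧
      abs ((∑ i : Fin N, (μHE[2] ((fun y => y - (inner ℝ y (e + w (c i)) / ‖e + w (c i)‖ ^ 2) • (e + w (c i))) ''
            {x : EuclideanSpace ℝ (Fin 3) | ∃ τ ∈ Set.Icc (t i.castSucc) (t i.succ), ∃ ρ ∈ Set.Icc 0 (R τ),
              ∃ s : ℝ, abs s ≤ L ∧ x = p₀ + ρ • (a + τ • b) + s • (e + w τ)})).toReal) -
          Real.sqrt (‖a‖ ^ 2 * ‖b‖ ^ 2 - inner ℝ a b ^ 2) *
            ∫ τ in α..β, R τ ^ 2 / (2 * Real.sqrt (1 + ‖w τ‖ ^ 2))) ≤ η := by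
  have hcomp : IsCompact (Set.Icc α β) := isCompact_Icc
  have hαI : α ∈ Set.Icc α β := ⟨le_refl _, hαβ.le⟩
  obtain ⟨Rb, hRb⟩ := hcomp.exists_bound_of_continuousOn hR
  obtain ⟨Lb, hLb⟩ := hcomp.exists_bound_of_continuousOn hlam
  have hRb0 : 0 ≤ Rb := le_trans (norm_nonneg _) (hRb α hαI)
  have hLb0 : 0 ≤ Lb := le_trans (norm_nonneg _) (hLb α hαI)
  have hRle : ∀ x ∈ Set.Icc α β, R x ≤ Rb := fun x hx =>
    le_trans (le_abs_self _) (by simpa using hRb x hx)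
  obtain ⟨Lam, hLam_def⟩ : ∃ Lam : ℝ, Lam = Lb + 1 := ⟨_, rfl⟩
  have hLam0 : 0 < Lam := by linarith
  have hLam : ∀ t ∈ Set.Icc α β, |lam t| ≤ Lam := fun t ht => by
    have := hLb t ht
    rw [Real.norm_eq_abs] at this
    linarith
  have hwcont : ContinuousOn w (Set.Icc α β) := fun t ht => (hw' t ht).continuousWithinAt
  have hκdef : Real.sqrt (‖a‖ ^ 2 * ‖b‖ ^ 2 - inner ℝ a b ^ 2) = Real.sqrt (gram a b) := rfl
  rw [hκdef]
  obtain ⟨F, hF_def⟩ : ∃ F : ℝ → ℝ, F = fun τ => R τ ^ 2 / (2 * Real.sqrt (1 + ‖w τ‖ ^ 2)) :=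
    ⟨_, rfl⟩
  rw [← hF_def]
  have hFc : ContinuousOn F (Set.Icc α β) := by
    rw [hF_def]
    apply ContinuousOn.div (hR.pow 2)
    · exact continuousOn_const.mul (Real.continuous_sqrt.comp_continuousOn
        (continuousOn_const.add (hwcont.norm.pow 2)))
    · intro x _
      positivity
  have hG : 0 < gram a b := gram_pos_of_linearIndependent hab
  obtain ⟨κ, hκ⟩ : ∃ κ : ℝ, κ = Real.sqrt (gram a b) := ⟨_, rfl⟩
  rw [← hκ]
  have hκ0 : 0 < κ := by rw [hκ]; exact Real.sqrt_pos.mpr hG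
  obtain ⟨C₁, hC₁⟩ : ∃ C₁ : ℝ, C₁ = 2 * Rb + 2 + (Rb + 2) ^ 2 := ⟨_, rfl⟩
  have hC₁pos : 0 < C₁ := by rw [hC₁]; positivity
  have hC₁Rb : Rb ≤ C₁ := by rw [hC₁]; nlinarith
  have hβα : 0 < β - α := by linarith
  have hden : 0 < κ * (β - α) * (C₁ + 1) := by positivity
  obtain ⟨θ, hθ_def⟩ : ∃ θ : ℝ, θ = min 1 (η / (κ * (β - α) * (C₁ + 1))) := ⟨_, rfl⟩
  have hθ0 : 0 < θ := by rw [hθ_def]; exact lt_min one_pos (div_pos hη hden)
  have hθ1 : θ ≤ 1 := by rw [hθ_def]; exact min_le_left _ _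
  have hθη : κ * (β - α) * (C₁ + 1) * θ ≤ η := by
    have : θ ≤ η / (κ * (β - α) * (C₁ + 1)) := by rw [hθ_def]; exact min_le_right _ _
    rw [le_div_iff₀ hden] at this
    linarith
  -- uniform continuity
  obtain ⟨δR, hδR0, hδR⟩ := (Metric.uniformContinuousOn_iff.mp
    (hcomp.uniformContinuousOn_of_continuous hR)) θ hθ0
  obtain ⟨δF, hδF0, hδF⟩ := (Metric.uniformContinuousOn_iff.mp
    (hcomp.uniformContinuousOn_of_continuous hFc)) θ hθ0
  obtain ⟨δ₃, hδ₃⟩ : ∃ δ₃ : ℝ, δ₃ = θ ^ 2 / (2 * L * Lam * (θ + 1)) := ⟨_, rfl⟩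
  have hδ₃0 : 0 < δ₃ := by rw [hδ₃]; positivity
  obtain ⟨δ, hδ_def⟩ : ∃ δ : ℝ, δ = min (min (δR / 2) (δF / 2)) δ₃ := ⟨_, rfl⟩
  have hδ0 : 0 < δ := by
    rw [hδ_def]; exact lt_min (lt_min (by linarith) (by linarith)) hδ₃0
  have hδ_R : δ ≤ δR / 2 := by
    rw [hδ_def]; exact le_trans (min_le_left _ _) (min_le_left _ _)
  have hδ_F : δ ≤ δF / 2 := by
    rw [hδ_def]; exact le_trans (min_le_left _ _) (min_le_right _ _)
  have hδ_3 : δ ≤ δ₃ := by rw [hδ_def]; exact min_le_right _ _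
  have hδθ : 2 * L * Lam * δ * (θ + 1) ≤ θ ^ 2 := by
    have h1 : 0 < 2 * L * Lam * (θ + 1) := by positivity
    have h2 : δ * (2 * L * Lam * (θ + 1)) ≤ θ ^ 2 := by
      calc δ * (2 * L * Lam * (θ + 1)) ≤ δ₃ * (2 * L * Lam * (θ + 1)) :=
            mul_le_mul_of_nonneg_right hδ_3 h1.le
        _ = θ ^ 2 := by rw [hδ₃]; field_simp
    linarith
  have hunifR : ∀ x ∈ Set.Icc α β, ∀ y ∈ Set.Icc α β, |x - y| ≤ δ → |R x - R y| ≤ θ := by
    intro x hx y hy hxy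
    have := hδR x hx y hy (by rw [Real.dist_eq]; linarith)
    rw [Real.dist_eq] at this
    exact this.le
  have hunifF : ∀ x ∈ Set.Icc α β, ∀ y ∈ Set.Icc α β, |x - y| ≤ δ → |F x - F y| ≤ θ := by
    intro x hx y hy hxy
    have := hδF x hx y hy (by rw [Real.dist_eq]; linarith)
    rw [Real.dist_eq] at this
    exact this.le
  refine ⟨δ, hδ0, ?_⟩
  intro N t c hmono h0 hlast hmesh hc
  have hmem := partition_mem hmono h0 hlast
  have hlt : ∀ i : Fin N, t i.castSucc < t i.succ := fun i =>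
    hmono (Fin.castSucc_lt_succ (i := i))
  have hNpos : 0 < N := by
    rcases Nat.eq_zero_or_pos N with h | h
    · subst h
      have h2 : t 0 = t (Fin.last 0) := rfl
      rw [h0, hlast] at h2
      linarith
    · exact h
  have hcI : ∀ i : Fin N, c i ∈ Set.Icc α β := fun i =>
    ⟨le_trans (hmem _).1 (hc i).1, le_trans (hc i).2 (hmem _).2⟩
  -- the triangles
  have hpiece := fun i : Fin N => piece harea p₀ he ha hb hab hL hR0 hw hw' hLam0 hLam hθ0 hδ0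
    hδθ hunifR (hmem i.castSucc).1 (hlt i) (hmem i.succ).2 (hmesh i) (hc i).1 (hc i).2
  choose p q r hperp haff hcov hareai using hpiece
  -- the values of the Riemann sums
  obtain ⟨G, hG_def⟩ : ∃ G : Fin N → ℝ, G = fun i =>
      (1 + 2 * θ) * (R (c i) + 2 * θ) ^ 2 / (2 * Real.sqrt (1 + ‖w (c i)‖ ^ 2)) := ⟨_, rfl⟩
  obtain ⟨g, hg_def⟩ : ∃ g : Fin N → ℝ, g = fun i =>
      (max (R (c i) - θ) 0) ^ 2 / (2 * Real.sqrt (1 + ‖w (c i)‖ ^ 2)) := ⟨_, rfl⟩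
  have hD : ∀ i : Fin N, 2 ≤ 2 * Real.sqrt (1 + ‖w (c i)‖ ^ 2) := by
    intro i
    have : 1 ≤ Real.sqrt (1 + ‖w (c i)‖ ^ 2) := by
      rw [Real.one_le_sqrt]
      nlinarith [sq_nonneg ‖w (c i)‖]
    linarith
  have hGF : ∀ i, |G i - F (c i)| ≤ θ * C₁ := by
    intro i
    have hr0 := hR0 (c i) (hcI i)
    have hr1 := hRle (c i) (hcI i)
    have e1 : G i - F (c i) = ((1 + 2 * θ) * (R (c i) + 2 * θ) ^ 2 - R (c i) ^ 2)
        / (2 * Real.sqrt (1 + ‖w (c i)‖ ^ 2)) := by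
      rw [hG_def, hF_def]; ring
    rw [e1]
    have e2 : (1 + 2 * θ) * (R (c i) + 2 * θ) ^ 2 - R (c i) ^ 2
        = 4 * θ * R (c i) + 4 * θ ^ 2 + 2 * θ * (R (c i) + 2 * θ) ^ 2 := by ring
    have h1 : 4 * θ * R (c i) ≤ 4 * θ * Rb :=
      mul_le_mul_of_nonneg_left hr1 (by positivity)
    have h2 : 4 * θ ^ 2 ≤ 4 * θ := by nlinarith
    have h3 : (R (c i) + 2 * θ) ^ 2 ≤ (Rb + 2) ^ 2 :=
      pow_le_pow_left₀ (by positivity) (by linarith) 2
    have h4 : 2 * θ * (R (c i) + 2 * θ) ^ 2 ≤ 2 * θ * (Rb + 2) ^ 2 :=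
      mul_le_mul_of_nonneg_left h3 (by positivity)
    apply div_bound (hD i)
    · rw [e2]; positivity
    · rw [e2, hC₁]; linarith
  have hgF : ∀ i, |g i - F (c i)| ≤ θ * C₁ := by
    intro i
    have hr0 := hR0 (c i) (hcI i)
    have hr1 := hRle (c i) (hcI i)
    have hm0 : 0 ≤ max (R (c i) - θ) 0 := le_max_right _ _
    have hm1 : R (c i) - θ ≤ max (R (c i) - θ) 0 := le_max_left _ _
    have hm2 : max (R (c i) - θ) 0 ≤ R (c i) := max_le (by linarith) hr0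
    have e1 : F (c i) - g i = (R (c i) ^ 2 - (max (R (c i) - θ) 0) ^ 2)
        / (2 * Real.sqrt (1 + ‖w (c i)‖ ^ 2)) := by
      rw [hg_def, hF_def]; ring
    rw [abs_sub_comm, e1]
    have e2 : R (c i) ^ 2 - (max (R (c i) - θ) 0) ^ 2
        = (R (c i) - max (R (c i) - θ) 0) * (R (c i) + max (R (c i) - θ) 0) := by ring
    have h2 : (R (c i) - max (R (c i) - θ) 0) * (R (c i) + max (R (c i) - θ) 0)
        ≤ θ * (2 * Rb) := mul_le_mul (by linarith) (by linarith) (by linarith) hθ0.le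
    have h3 : θ * (2 * Rb) ≤ 2 * (θ * C₁) := by nlinarith
    apply div_bound (hD i)
    · rw [e2]; exact mul_nonneg (by linarith) (by linarith)
    · rw [e2]; linarith
  have hGnn : ∀ i, 0 ≤ G i := by
    intro i
    have hr0 := hR0 (c i) (hcI i)
    rw [hG_def]
    positivity
  -- Riemann sums
  have hRG := riemann hFc hunifF N t c hmono h0 hlast hmesh hc G hGF
  have hRg := riemann hFc hunifF N t c hmono h0 hlast hmesh hc g hgF
  have hfin : κ * ((θ + θ * C₁) * (β - α)) ≤ η := by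
    calc κ * ((θ + θ * C₁) * (β - α)) = κ * (β - α) * (C₁ + 1) * θ := by ring
      _ ≤ η := hθη
  have hareaR : ∀ i, (μHE[2] (convexHull ℝ ({p i, q i, r i} : Set E3))).toReal
      = κ * ((t i.succ - t i.castSucc) * G i) := by
    intro i
    have h1 := hGnn i
    have h2 := hlt i
    rw [hareai i, ENNReal.toReal_ofReal, hκ, hG_def]
    rw [hG_def] at h1
    have h3 : 0 ≤ t i.succ - t i.castSucc := by linarith
    exact mul_nonneg (Real.sqrt_nonneg _) (mul_nonneg h3 h1)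
  have hsumG : |∑ i, κ * ((t i.succ - t i.castSucc) * G i) - κ * ∫ τ in α..β, F τ| ≤ η := by
    rw [← Finset.mul_sum, ← mul_sub, abs_mul, abs_of_pos hκ0]
    exact le_trans (mul_le_mul_of_nonneg_left hRG hκ0.le) hfin
  have hsumg : |∑ i, κ * ((t i.succ - t i.castSucc) * g i) - κ * ∫ τ in α..β, F τ| ≤ η := by
    rw [← Finset.mul_sum, ← mul_sub, abs_mul, abs_of_pos hκ0]
    exact le_trans (mul_le_mul_of_nonneg_left hRg hκ0.le) hfin
  refine ⟨⟨p, q, r, hperp, haff, ?_, ?_⟩, ?_⟩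
  · -- cover
    rintro x ⟨τ, hτ, ρ, hρ, s, hs, rfl⟩
    have hτ0 : t 0 ≤ τ := by rw [h0]; exact hτ.1
    have hτ1 : τ ≤ t (Fin.last N) := by rw [hlast]; exact hτ.2
    obtain ⟨i, hi1, hi2⟩ := exists_piece t hmono hτ0 hτ1 hNpos
    rw [Set.mem_iUnion]
    exact ⟨i, proj (e + w (c i)) (p₀ + ρ • (a + τ • b) + s • (e + w τ)),
      hcov i τ ⟨hi1, hi2⟩ ρ hρ s hs, _, eq_proj_add _ _⟩
  · -- area sum
    rw [Finset.sum_congr rfl (fun i _ => hareaR i)]
    exact hsumG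
  · -- projected pieces
    have hboth : ∀ i : Fin N,
        κ * ((t i.succ - t i.castSucc) * g i) ≤
          (μHE[2] ((fun y => y - (inner ℝ y (e + w (c i)) / ‖e + w (c i)‖ ^ 2) • (e + w (c i))) ''
            {x : EuclideanSpace ℝ (Fin 3) | ∃ τ ∈ Set.Icc (t i.castSucc) (t i.succ), ∃ ρ ∈ Set.Icc 0 (R τ),
              ∃ s : ℝ, abs s ≤ L ∧ x = p₀ + ρ • (a + τ • b) + s • (e + w τ)})).toReal ∧
        (μHE[2] ((fun y => y - (inner ℝ y (e + w (c i)) / ‖e + w (c i)‖ ^ 2) • (e + w (c i))) ''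
            {x : EuclideanSpace ℝ (Fin 3) | ∃ τ ∈ Set.Icc (t i.castSucc) (t i.succ), ∃ ρ ∈ Set.Icc 0 (R τ),
              ∃ s : ℝ, abs s ≤ L ∧ x = p₀ + ρ • (a + τ • b) + s • (e + w τ)})).toReal
          ≤ κ * ((t i.succ - t i.castSucc) * G i) := by
      intro i
      have hsubset : (fun y => y - (inner ℝ y (e + w (c i)) / ‖e + w (c i)‖ ^ 2) • (e + w (c i))) ''
            {x : EuclideanSpace ℝ (Fin 3) | ∃ τ ∈ Set.Icc (t i.castSucc) (t i.succ), ∃ ρ ∈ Set.Icc 0 (R τ),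
              ∃ s : ℝ, abs s ≤ L ∧ x = p₀ + ρ • (a + τ • b) + s • (e + w τ)}
          ⊆ convexHull ℝ ({p i, q i, r i} : Set E3) := by
        rintro _ ⟨x, ⟨τ, hτ, ρ, hρ, s, hs, rfl⟩, rfl⟩
        exact hcov i τ hτ ρ hρ s hs
      have hfinite : μHE[2] (convexHull ℝ ({p i, q i, r i} : Set E3)) ≠ ⊤ := by
        rw [hareai i]; exact ENNReal.ofReal_ne_top
      have hfinite' := ne_top_of_le_ne_top hfinite (measure_mono hsubset)
      constructor
      · have h1 := piece_inner harea p₀ he ha hb hab hL hR0 hw hunifR (hmem i.castSucc).1 (hlt i)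
          (hmem i.succ).2 (hmesh i) (hc i).1 (hc i).2
        rw [← hκ] at h1
        have h2 := (ENNReal.ofReal_le_iff_le_toReal hfinite').mp h1
        rw [hg_def]
        exact h2
      · calc _ ≤ (μHE[2] (convexHull ℝ ({p i, q i, r i} : Set E3))).toReal :=
              ENNReal.toReal_mono hfinite (measure_mono hsubset)
          _ = κ * ((t i.succ - t i.castSucc) * G i) := hareaR i
    have hlow := Finset.sum_le_sum (fun i (_ : i ∈ Finset.univ) => (hboth i).1)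
    have hup := Finset.sum_le_sum (fun i (_ : i ∈ Finset.univ) => (hboth i).2)
    have h1 := (abs_le.mp hsumg).1
    have h2 := (abs_le.mp hsumG).2
    rw [abs_le]
    constructor
    · linarith
    · linarith

end Crest.Agent.S0328.Helper63
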