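import Mathlib

/-!
# FTC facts for the radial sweep (row 211, package P8 / S0328)

`w : ℝ → E` with `HasDerivWithinAt w (lam t • (a + t • b)) (Icc α β) t` on `[α, β]`, `lam`
continuous on `[α, β]`.  Then for `σ, τ ∈ [α, β]`

* `w τ - w σ = ∫ x in σ..τ, lam x • (a + x • b)`,
* `w τ - w σ = (∫ x in σ..τ, lam x) • a + (∫ x in σ..τ, x * lam x) • b`,
* with `|lam| ≤ Λ` on `[α, β]`: `|∫ x in σ..τ, lam x| ≤ Λ |τ - σ|` and
  `|∫ x in σ..τ, x * lam x - σ' * ∫ x in σ..τ, lam x| ≤ Λ |τ - σ|²` for `σ'` between `σ` and `τ`.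
-/

set_option autoImplicit false

namespace Crest.Agent.S0328.Helper64

open MeasureTheory Set

variable {E : Type*} [NormedAddCommGroup E] [NormedSpace ℝ E]

/-- `w` is continuous on `[α, β]`. -/
theorem w_continuousOn {α β : ℝ} {w : ℝ → E} {lam : ℝ → ℝ} {a b : E}
    (hw' : ∀ t ∈ Icc α β, HasDerivWithinAt w (lam t • (a + t • b)) (Icc α β) t) :
    ContinuousOn w (Icc α β) :=
  fun t ht => (hw' t ht).continuousWithinAt

/-- The velocity `x ↦ lam x • (a + x • b)` is continuous on `[α, β]`. -/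
theorem vel_continuousOn {α β : ℝ} {lam : ℝ → ℝ} (a b : E)
    (hlam : ContinuousOn lam (Icc α β)) :
    ContinuousOn (fun x : ℝ => lam x • (a + x • b)) (Icc α β) := by
  apply ContinuousOn.smul hlam
  exact (continuous_const.add (continuous_id.smul continuous_const)).continuousOn

theorem uIcc_subset_of_mem {α β σ τ : ℝ} (hσ : σ ∈ Icc α β) (hτ : τ ∈ Icc α β) :
    uIcc σ τ ⊆ Icc α β := by
  intro x hx
  rcases mem_uIcc.1 hx with h | h
  · exact ⟨hσ.1.trans h.1, h.2.trans hτ.2⟩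
  · exact ⟨hτ.1.trans h.1, h.2.trans hσ.2⟩

theorem uIoc_subset_of_mem {α β σ τ : ℝ} (hσ : σ ∈ Icc α β) (hτ : τ ∈ Icc α β) :
    uIoc σ τ ⊆ Icc α β :=
  fun _ hx => uIcc_subset_of_mem hσ hτ (uIoc_subset_uIcc hx)

variable [CompleteSpace E]

/-- FTC, ordered case. -/
theorem w_sub_eq_integral_of_le {α β : ℝ} {w : ℝ → E} {lam : ℝ → ℝ} {a b : E}
    (hlam : ContinuousOn lam (Icc α β))
    (hw' : ∀ t ∈ Icc α β, HasDerivWithinAt w (lam t • (a + t • b)) (Icc α β) t)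
    {σ τ : ℝ} (hσ : σ ∈ Icc α β) (hτ : τ ∈ Icc α β) (hστ : σ ≤ τ) :
    w τ - w σ = ∫ x in σ..τ, lam x • (a + x • b) := by
  have hsub : Icc σ τ ⊆ Icc α β := fun x hx => ⟨hσ.1.trans hx.1, hx.2.trans hτ.2⟩
  symm
  apply intervalIntegral.integral_eq_sub_of_hasDeriv_right_of_le hστ
  · exact (w_continuousOn hw').mono hsub
  · intro x hx
    have hxI : x ∈ Icc α β := hsub ⟨hx.1.le, hx.2.le⟩
    have hmem : Icc α β ∈ nhdsWithin x (Ioi x) :=
      Icc_mem_nhdsGT_of_mem ⟨hxI.1, hx.2.trans_le hτ.2⟩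
    exact (hw' x hxI).mono_of_mem_nhdsWithin hmem
  · apply ContinuousOn.intervalIntegrable
    rw [uIcc_of_le hστ]
    exact (vel_continuousOn a b hlam).mono hsub

/-- **FTC**: `w τ - w σ = ∫_σ^τ lam x • (a + x • b)` for `σ, τ ∈ [α, β]` (any order). -/
theorem w_sub_eq_integral {α β : ℝ} {w : ℝ → E} {lam : ℝ → ℝ} {a b : E}
    (hlam : ContinuousOn lam (Icc α β))
    (hw' : ∀ t ∈ Icc α β, HasDerivWithinAt w (lam t • (a + t • b)) (Icc α β) t)
    {σ τ : ℝ} (hσ : σ ∈ Icc α β) (hτ : τ ∈ Icc α β) :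
    w τ - w σ = ∫ x in σ..τ, lam x • (a + x • b) := by
  rcases le_total σ τ with h | h
  · exact w_sub_eq_integral_of_le hlam hw' hσ hτ h
  · rw [intervalIntegral.integral_symm, ← w_sub_eq_integral_of_le hlam hw' hτ hσ h, neg_sub]

theorem lam_intervalIntegrable {α β : ℝ} {lam : ℝ → ℝ} (hlam : ContinuousOn lam (Icc α β))
    {σ τ : ℝ} (hσ : σ ∈ Icc α β) (hτ : τ ∈ Icc α β) :
    IntervalIntegrable lam volume σ τ :=
  (hlam.mono (uIcc_subset_of_mem hσ hτ)).intervalIntegrable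

theorem mul_lam_intervalIntegrable {α β : ℝ} {lam : ℝ → ℝ} (hlam : ContinuousOn lam (Icc α β))
    {σ τ : ℝ} (hσ : σ ∈ Icc α β) (hτ : τ ∈ Icc α β) :
    IntervalIntegrable (fun x => x * lam x) volume σ τ :=
  ((continuous_id.continuousOn.mul hlam).mono (uIcc_subset_of_mem hσ hτ)).intervalIntegrable

/-- **FTC in the frame `(a, b)`**:
`w τ - w σ = (∫_σ^τ lam) • a + (∫_σ^τ x lam x) • b`. -/
theorem w_sub_eq_smul_add_smul {α β : ℝ} {w : ℝ → E} {lam : ℝ → ℝ} {a b : E}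
    (hlam : ContinuousOn lam (Icc α β))
    (hw' : ∀ t ∈ Icc α β, HasDerivWithinAt w (lam t • (a + t • b)) (Icc α β) t)
    {σ τ : ℝ} (hσ : σ ∈ Icc α β) (hτ : τ ∈ Icc α β) :
    w τ - w σ = (∫ x in σ..τ, lam x) • a + (∫ x in σ..τ, x * lam x) • b := by
  rw [w_sub_eq_integral hlam hw' hσ hτ]
  have h1 : (fun x : ℝ => lam x • (a + x • b)) = fun x => lam x • a + (x * lam x) • b := by
    funext x
    rw [smul_add, smul_smul, mul_comm]
  rw [h1, intervalIntegral.integral_add, intervalIntegral.integral_smul_const,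
    intervalIntegral.integral_smul_const]
  · exact ((hlam.mono (uIcc_subset_of_mem hσ hτ)).smul continuousOn_const).intervalIntegrable
  · exact (((continuous_id.continuousOn.mul hlam).mono (uIcc_subset_of_mem hσ hτ)).smul
      continuousOn_const).intervalIntegrable

/-- `lam` is bounded on `[α, β]`. -/
theorem exists_lam_bound {α β : ℝ} {lam : ℝ → ℝ} (hlam : ContinuousOn lam (Icc α β)) :
    ∃ Λ : ℝ, 0 ≤ Λ ∧ ∀ x ∈ Icc α β, |lam x| ≤ Λ := by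
  obtain ⟨C, hC⟩ := isCompact_Icc.exists_bound_of_continuousOn hlam
  refine ⟨max C 0, le_max_right _ _, fun x hx => ?_⟩
  have := hC x hx
  rw [Real.norm_eq_abs] at this
  exact this.trans (le_max_left _ _)

/-- `|∫_σ^τ lam| ≤ Λ |τ - σ|`. -/
theorem abs_integral_lam_le {α β : ℝ} {lam : ℝ → ℝ} {Λ : ℝ}
    (hΛ : ∀ x ∈ Icc α β, |lam x| ≤ Λ)
    {σ τ : ℝ} (hσ : σ ∈ Icc α β) (hτ : τ ∈ Icc α β) :
    |∫ x in σ..τ, lam x| ≤ Λ * |τ - σ| := by
  rw [← Real.norm_eq_abs]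
  apply intervalIntegral.norm_integral_le_of_norm_le_const
  intro x hx
  have h := hΛ x (uIoc_subset_of_mem hσ hτ hx)
  rwa [← Real.norm_eq_abs] at h

/-- `|∫_σ^τ x lam x - σ' ∫_σ^τ lam| ≤ Λ |τ - σ|²` for `σ'` between `σ` and `τ`. -/
theorem abs_integral_mul_lam_sub_le {α β : ℝ} {lam : ℝ → ℝ} {Λ : ℝ}
    (hlam : ContinuousOn lam (Icc α β)) (hΛ : ∀ x ∈ Icc α β, |lam x| ≤ Λ)
    {σ τ : ℝ} (hσ : σ ∈ Icc α β) (hτ : τ ∈ Icc α β) {σ' : ℝ} (hσ' : σ' ∈ uIcc σ τ) :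
    |(∫ x in σ..τ, x * lam x) - σ' * ∫ x in σ..τ, lam x| ≤ Λ * |τ - σ| ^ 2 := by
  have hΛ0 : 0 ≤ Λ := (abs_nonneg _).trans (hΛ σ hσ)
  have heq : (∫ x in σ..τ, x * lam x) - σ' * ∫ x in σ..τ, lam x
      = ∫ x in σ..τ, (x - σ') * lam x := by
    rw [← intervalIntegral.integral_const_mul, ← intervalIntegral.integral_sub]
    · congr 1
      funext x
      ring
    · exact mul_lam_intervalIntegrable hlam hσ hτ
    · exact (lam_intervalIntegrable hlam hσ hτ).const_mul σ'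
  rw [heq, ← Real.norm_eq_abs]
  have hbound : ∀ x ∈ uIoc σ τ, ‖(x - σ') * lam x‖ ≤ Λ * |τ - σ| := by
    intro x hx
    rw [Real.norm_eq_abs, abs_mul, mul_comm]
    have hx' : x ∈ uIcc σ τ := uIoc_subset_uIcc hx
    have h1 : |x - σ'| ≤ |τ - σ| := by
      rcases mem_uIcc.1 hx' with h | h <;> rcases mem_uIcc.1 hσ' with h' | h' <;>
        (rw [abs_le]; constructor <;>
          first
            | (rw [abs_of_nonneg (by linarith)]; linarith)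
            | (rw [abs_of_nonpos (by linarith)]; linarith))
    exact mul_le_mul (hΛ x (uIoc_subset_of_mem hσ hτ hx)) h1 (abs_nonneg _) hΛ0
  calc ‖∫ x in σ..τ, (x - σ') * lam x‖ ≤ (Λ * |τ - σ|) * |τ - σ| :=
        intervalIntegral.norm_integral_le_of_norm_le_const hbound
    _ = Λ * |τ - σ| ^ 2 := by ring

/-- Packaged form: for `σ, τ ∈ [α, β]` there are reals `A, B` with
`w τ - w σ = A • a + B • b`, `|A| ≤ Λ |τ - σ|`, `|B - σ A| ≤ Λ |τ - σ|²`,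
`|B - τ A| ≤ Λ |τ - σ|²`. -/
theorem exists_coords {α β : ℝ} {w : ℝ → E} {lam : ℝ → ℝ} {a b : E} {Λ : ℝ}
    (hlam : ContinuousOn lam (Icc α β)) (hΛ : ∀ x ∈ Icc α β, |lam x| ≤ Λ)
    (hw' : ∀ t ∈ Icc α β, HasDerivWithinAt w (lam t • (a + t • b)) (Icc α β) t)
    {σ τ : ℝ} (hσ : σ ∈ Icc α β) (hτ : τ ∈ Icc α β) :
    ∃ A B : ℝ, w τ - w σ = A • a + B • b ∧ |A| ≤ Λ * |τ - σ| ∧
      |B - σ * A| ≤ Λ * |τ - σ| ^ 2 ∧ |B - τ * A| ≤ Λ * |τ - σ| ^ 2 :=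
  ⟨∫ x in σ..τ, lam x, ∫ x in σ..τ, x * lam x,
    w_sub_eq_smul_add_smul hlam hw' hσ hτ,
    abs_integral_lam_le hΛ hσ hτ,
    abs_integral_mul_lam_sub_le hlam hΛ hσ hτ left_mem_uIcc,
    abs_integral_mul_lam_sub_le hlam hΛ hσ hτ right_mem_uIcc⟩

end Crest.Agent.S0328.Helper64
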