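import Mathlib
import Crest.Agent.Lib.S0328.Helper64Riemann

/-!
# Sandwich Riemann sums (final bookkeeping for S0328, row 211)

For continuous `G, R` on `[α, β]` and a partition `t` of mesh `≤ δ` with tags `c`:
if `v i` lies between `G (c i) * R τ₀ ^ 2 * Δ i` and
`(1 + θ) * (G (c i) * (R τ₁ + C * Δ i) ^ 2 * Δ i)` for some `τ₀, τ₁` in the `i`-th piece
(`Δ i` its length), then `∑ v i` is close to `∫ G R²`.
-/

set_option autoImplicit false
open MeasureTheory Set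

namespace Crest.Agent.S0328.Helper64

/-- Joint uniform continuity of `(c, τ, d) ↦ G c * (R τ + C * d) ^ 2` near the diagonal. -/
theorem exists_delta_sandwich {α β : ℝ} {G R : ℝ → ℝ}
    (hG : ContinuousOn G (Icc α β)) (hR : ContinuousOn R (Icc α β)) (C : ℝ) {ε₀ : ℝ}
    (hε₀ : 0 < ε₀) :
    ∃ δ : ℝ, 0 < δ ∧ ∀ c ∈ Icc α β, ∀ τ ∈ Icc α β, ∀ x ∈ Icc α β, ∀ d : ℝ,
      |c - x| ≤ δ → |τ - x| ≤ δ → 0 ≤ d → d ≤ δ →
      |G c * (R τ + C * d) ^ 2 - G x * R x ^ 2| ≤ ε₀ := by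
  have hK : IsCompact (Icc α β ×ˢ (Icc α β ×ˢ Icc (0 : ℝ) 1)) :=
    isCompact_Icc.prod (isCompact_Icc.prod isCompact_Icc)
  have hH : ContinuousOn (fun p : ℝ × ℝ × ℝ => G p.1 * (R p.2.1 + C * p.2.2) ^ 2)
      (Icc α β ×ˢ (Icc α β ×ˢ Icc (0 : ℝ) 1)) := by
    apply ContinuousOn.mul
    · exact hG.comp continuous_fst.continuousOn (fun p hp => hp.1)
    · apply ContinuousOn.pow
      apply ContinuousOn.add
      · exact hR.comp (continuous_fst.comp continuous_snd).continuousOn (fun p hp => hp.2.1)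
      · exact (continuous_const.mul (continuous_snd.comp continuous_snd)).continuousOn
  have huc := hK.uniformContinuousOn_of_continuous hH
  rw [Metric.uniformContinuousOn_iff] at huc
  obtain ⟨δ, hδ, h⟩ := huc ε₀ hε₀
  refine ⟨min (δ / 2) 1, by positivity, fun c hc τ hτ x hx d hcx hτx hd0 hdδ => ?_⟩
  have hd1 : d ≤ 1 := hdδ.trans (min_le_right _ _)
  have hδ2 : min (δ / 2) 1 ≤ δ / 2 := min_le_left _ _
  have key := h (c, τ, d) ⟨hc, hτ, hd0, hd1⟩ (x, x, 0) ⟨hx, hx, le_refl 0, zero_le_one⟩ (by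
    rw [Prod.dist_eq, Prod.dist_eq]
    simp only [Real.dist_eq, sub_zero]
    rw [max_lt_iff, max_lt_iff]
    refine ⟨by linarith, by linarith, ?_⟩
    rw [abs_of_nonneg hd0]
    linarith)
  have h2 := key.le
  rw [Real.dist_eq] at h2
  simpa using h2

/-- Lower sandwich bound. -/
theorem sum_lower {α β : ℝ} (hαβ : α ≤ β) {G R : ℝ → ℝ}
    (hG : ContinuousOn G (Icc α β)) (hR : ContinuousOn R (Icc α β)) {η : ℝ} (hη : 0 < η) :
    ∃ δ : ℝ, 0 < δ ∧ ∀ (N : ℕ) (t : Fin (N + 1) → ℝ) (c : Fin N → ℝ),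
      Monotone t → t 0 = α → t (Fin.last N) = β →
      (∀ i : Fin N, t i.succ - t i.castSucc ≤ δ) →
      (∀ i : Fin N, t i.castSucc ≤ c i ∧ c i ≤ t i.succ) →
      ∀ v : Fin N → ℝ,
        (∀ i, ∃ τ₀ ∈ Icc (t i.castSucc) (t i.succ),
          G (c i) * R τ₀ ^ 2 * (t i.succ - t i.castSucc) ≤ v i) →
        (∫ τ in α..β, G τ * R τ ^ 2) - η ≤ ∑ i, v i := by
  obtain ⟨δ, hδ, h⟩ := exists_delta_sandwich hG hR 0 (ε₀ := η / (β - α + 1)) (by positivity)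
  refine ⟨δ, hδ, fun N t c ht h0 hN hmesh hc v hv => ?_⟩
  choose τ₀ hτ₀ hv' using hv
  have hF : ContinuousOn (fun x => G x * R x ^ 2) (Icc α β) := hG.mul (hR.pow 2)
  have key := abs_sum_sub_integral_le hF t ht h0 hN (fun i => G (c i) * R (τ₀ i) ^ 2)
    (η / (β - α + 1)) (by
      intro i x hx
      have hsub := piece_subset t ht h0 hN i
      have hci : c i ∈ Icc (t i.castSucc) (t i.succ) := ⟨(hc i).1, (hc i).2⟩
      have := h (c i) (hsub hci) (τ₀ i) (hsub (hτ₀ i)) x (hsub hx) 0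
        (by rw [abs_le]; constructor <;> linarith [hmesh i, hx.1, hx.2, hci.1, hci.2])
        (by rw [abs_le]; constructor <;> linarith [hmesh i, hx.1, hx.2, (hτ₀ i).1, (hτ₀ i).2])
        le_rfl hδ.le
      simpa using this)
  have hle : ∑ i, G (c i) * R (τ₀ i) ^ 2 * (t i.succ - t i.castSucc) ≤ ∑ i, v i :=
    Finset.sum_le_sum fun i _ => hv' i
  have hb : η / (β - α + 1) * (β - α) ≤ η := by
    rw [div_mul_eq_mul_div, div_le_iff₀ (by linarith)]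
    nlinarith
  have := (abs_le.1 key).1
  linarith

/-- Upper sandwich bound (with a multiplicative slack `1 + θ` and an additive slack
`C * Δ i` inside the square). -/
theorem sum_upper {α β : ℝ} (hαβ : α ≤ β) {G R : ℝ → ℝ}
    (hG : ContinuousOn G (Icc α β)) (hR : ContinuousOn R (Icc α β)) (C θ : ℝ) (hθ : 0 ≤ θ)
    {η : ℝ} (hη : 0 < η) :
    ∃ δ : ℝ, 0 < δ ∧ ∀ (N : ℕ) (t : Fin (N + 1) → ℝ) (c : Fin N → ℝ),
      Monotone t → t 0 = α → t (Fin.last N) = β →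
      (∀ i : Fin N, t i.succ - t i.castSucc ≤ δ) →
      (∀ i : Fin N, t i.castSucc ≤ c i ∧ c i ≤ t i.succ) →
      ∀ v : Fin N → ℝ,
        (∀ i, ∃ τ₁ ∈ Icc (t i.castSucc) (t i.succ),
          v i ≤ (1 + θ) * (G (c i) * (R τ₁ + C * (t i.succ - t i.castSucc)) ^ 2
            * (t i.succ - t i.castSucc))) →
        ∑ i, v i ≤ (1 + θ) * ((∫ τ in α..β, G τ * R τ ^ 2) + η) := by
  obtain ⟨δ, hδ, h⟩ := exists_delta_sandwich hG hR C (ε₀ := η / (β - α + 1)) (by positivity)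
  refine ⟨δ, hδ, fun N t c ht h0 hN hmesh hc v hv => ?_⟩
  choose τ₁ hτ₁ hv' using hv
  have hF : ContinuousOn (fun x => G x * R x ^ 2) (Icc α β) := hG.mul (hR.pow 2)
  have key := abs_sum_sub_integral_le hF t ht h0 hN
    (fun i => G (c i) * (R (τ₁ i) + C * (t i.succ - t i.castSucc)) ^ 2)
    (η / (β - α + 1)) (by
      intro i x hx
      have hsub := piece_subset t ht h0 hN i
      have hci : c i ∈ Icc (t i.castSucc) (t i.succ) := ⟨(hc i).1, (hc i).2⟩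
      exact h (c i) (hsub hci) (τ₁ i) (hsub (hτ₁ i)) x (hsub hx) (t i.succ - t i.castSucc)
        (by rw [abs_le]; constructor <;> linarith [hmesh i, hx.1, hx.2, hci.1, hci.2])
        (by rw [abs_le]; constructor <;> linarith [hmesh i, hx.1, hx.2, (hτ₁ i).1, (hτ₁ i).2])
        (sub_nonneg.2 (castSucc_le_succ t ht i)) (hmesh i))
  have hle : ∑ i, v i ≤ (1 + θ) * ∑ i, G (c i) *
      (R (τ₁ i) + C * (t i.succ - t i.castSucc)) ^ 2 * (t i.succ - t i.castSucc) := by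
    rw [Finset.mul_sum]
    exact Finset.sum_le_sum fun i _ => hv' i
  have hb : η / (β - α + 1) * (β - α) ≤ η := by
    rw [div_mul_eq_mul_div, div_le_iff₀ (by linarith)]
    nlinarith
  have h2 := (abs_le.1 key).2
  have h3 : ∑ i, G (c i) * (R (τ₁ i) + C * (t i.succ - t i.castSucc)) ^ 2
      * (t i.succ - t i.castSucc) ≤ (∫ τ in α..β, G τ * R τ ^ 2) + η := by linarith
  exact hle.trans (mul_le_mul_of_nonneg_left h3 (by linarith))

/-- Two-sided sandwich (no multiplicative slack): the form used when the triangle areas are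
exactly `G (c i) * (max R + C Δ)² Δ`. -/
theorem sum_sandwich {α β : ℝ} (hαβ : α ≤ β) {G R : ℝ → ℝ}
    (hG : ContinuousOn G (Icc α β)) (hR : ContinuousOn R (Icc α β)) (C : ℝ)
    {η : ℝ} (hη : 0 < η) :
    ∃ δ : ℝ, 0 < δ ∧ ∀ (N : ℕ) (t : Fin (N + 1) → ℝ) (c : Fin N → ℝ),
      Monotone t → t 0 = α → t (Fin.last N) = β →
      (∀ i : Fin N, t i.succ - t i.castSucc ≤ δ) →
      (∀ i : Fin N, t i.castSucc ≤ c i ∧ c i ≤ t i.succ) →
      ∀ v : Fin N → ℝ,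
        (∀ i, (∃ τ₀ ∈ Icc (t i.castSucc) (t i.succ),
            G (c i) * R τ₀ ^ 2 * (t i.succ - t i.castSucc) ≤ v i) ∧
          (∃ τ₁ ∈ Icc (t i.castSucc) (t i.succ),
            v i ≤ G (c i) * (R τ₁ + C * (t i.succ - t i.castSucc)) ^ 2
              * (t i.succ - t i.castSucc))) →
        |∑ i, v i - ∫ τ in α..β, G τ * R τ ^ 2| ≤ η := by
  obtain ⟨δ₁, hδ₁, h₁⟩ := sum_lower hαβ hG hR hη
  obtain ⟨δ₂, hδ₂, h₂⟩ := sum_upper hαβ hG hR C 0 le_rfl hη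
  refine ⟨min δ₁ δ₂, lt_min hδ₁ hδ₂, fun N t c ht h0 hN hmesh hc v hv => ?_⟩
  have hl := h₁ N t c ht h0 hN (fun i => (hmesh i).trans (min_le_left _ _)) hc v
    (fun i => (hv i).1)
  have hu := h₂ N t c ht h0 hN (fun i => (hmesh i).trans (min_le_right _ _)) hc v (fun i => by
    obtain ⟨τ₁, hτ₁, h⟩ := (hv i).2
    exact ⟨τ₁, hτ₁, by simpa using h⟩)
  rw [abs_le]
  constructor <;> linarith

/-- The weight `κ / (2 √(1 + ‖w τ‖²))` of S0328 is continuous on `[α, β]`. -/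
theorem weight_continuousOn {E : Type*} [NormedAddCommGroup E] {α β : ℝ} {w : ℝ → E}
    (hw : ContinuousOn w (Icc α β)) (κ : ℝ) :
    ContinuousOn (fun τ => κ / (2 * Real.sqrt (1 + ‖w τ‖ ^ 2))) (Icc α β) := by
  apply ContinuousOn.div continuousOn_const
  · apply ContinuousOn.mul continuousOn_const
    apply ContinuousOn.sqrt
    exact continuousOn_const.add (hw.norm.pow 2)
  · intro τ _
    have : 0 < Real.sqrt (1 + ‖w τ‖ ^ 2) := Real.sqrt_pos.2 (by positivity)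
    positivity

/-- The target integral of S0328 in the form `∫ G R²`. -/
theorem kappa_mul_integral_eq {E : Type*} [NormedAddCommGroup E] (α β κ : ℝ) (R : ℝ → ℝ)
    (w : ℝ → E) :
    κ * ∫ τ in α..β, R τ ^ 2 / (2 * Real.sqrt (1 + ‖w τ‖ ^ 2))
      = ∫ τ in α..β, κ / (2 * Real.sqrt (1 + ‖w τ‖ ^ 2)) * R τ ^ 2 := by
  rw [← intervalIntegral.integral_const_mul]
  congr 1
  funext τ
  ring

/-- **Bookkeeping for S0328.**  If each `v i` lies between
`κ * (R τ₀² Δ / (2 √(1 + ‖w (c i)‖²)))` and `κ * ((R τ₁ + C Δ)² Δ / (2 √(1 + ‖w (c i)‖²)))`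
for some `τ₀, τ₁` in the `i`-th piece (`Δ` its length), and the mesh is `≤ δ`, then `∑ v i` is
within `η` of `κ ∫ R² / (2 √(1 + ‖w‖²))`. -/
theorem bookkeeping {E : Type*} [NormedAddCommGroup E] {α β : ℝ} (hαβ : α ≤ β) {R : ℝ → ℝ}
    (hR : ContinuousOn R (Icc α β)) {w : ℝ → E} (hw : ContinuousOn w (Icc α β)) (κ C : ℝ)
    {η : ℝ} (hη : 0 < η) :
    ∃ δ : ℝ, 0 < δ ∧ ∀ (N : ℕ) (t : Fin (N + 1) → ℝ) (c : Fin N → ℝ),
      Monotone t → t 0 = α → t (Fin.last N) = β →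
      (∀ i : Fin N, t i.succ - t i.castSucc ≤ δ) →
      (∀ i : Fin N, t i.castSucc ≤ c i ∧ c i ≤ t i.succ) →
      ∀ v : Fin N → ℝ,
        (∀ i, (∃ τ₀ ∈ Icc (t i.castSucc) (t i.succ),
            κ * (R τ₀ ^ 2 * (t i.succ - t i.castSucc) / (2 * Real.sqrt (1 + ‖w (c i)‖ ^ 2)))
              ≤ v i) ∧
          (∃ τ₁ ∈ Icc (t i.castSucc) (t i.succ),
            v i ≤ κ * ((R τ₁ + C * (t i.succ - t i.castSucc)) ^ 2 * (t i.succ - t i.castSucc)
              / (2 * Real.sqrt (1 + ‖w (c i)‖ ^ 2))))) →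
        |∑ i, v i - κ * ∫ τ in α..β, R τ ^ 2 / (2 * Real.sqrt (1 + ‖w τ‖ ^ 2))| ≤ η := by
  obtain ⟨δ, hδ, h⟩ := sum_sandwich hαβ (weight_continuousOn hw κ) hR C hη
  refine ⟨δ, hδ, fun N t c ht h0 hN hmesh hc v hv => ?_⟩
  rw [kappa_mul_integral_eq]
  refine h N t c ht h0 hN hmesh hc v (fun i => ⟨?_, ?_⟩)
  · obtain ⟨τ₀, hτ₀, h1⟩ := (hv i).1
    refine ⟨τ₀, hτ₀, le_of_eq_of_le ?_ h1⟩
    ring
  · obtain ⟨τ₁, hτ₁, h1⟩ := (hv i).2
    refine ⟨τ₁, hτ₁, le_of_le_of_eq h1 ?_⟩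
    ring

end Crest.Agent.S0328.Helper64
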